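import Vale.Agent.Lib.P371.Spectral

/-!
Assembly of the eigenvalue-sum inequality for matrix potentials.
-/

open MeasureTheory Matrix Set Filter FourierTransform
open scoped ComplexConjugate ENNReal Real

namespace Vale.Agent.Lib.P371

variable {m N : ℕ} {ι : Type*} [Fintype ι]

section Linear

variable {K : Type*} [Fintype K]

theorem fourierInv_sum (c : K → ℂ) (g : K → ℝ → ℂ) (hg : ∀ k, Integrable (g k)) (x : ℝ) :
    (𝓕⁻ (fun ξ => ∑ k, c k * g k ξ) : ℝ → ℂ) x = ∑ k, c k * (𝓕⁻ (g k) : ℝ → ℂ) x := by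
  rw [fourierInv_eq_chi]
  simp only [Finset.mul_sum]
  rw [integral_finsetSum]
  · refine Finset.sum_congr rfl fun k _ => ?_
    rw [fourierInv_eq_chi, ← integral_const_mul]
    refine integral_congr_ae (Eventually.of_forall fun ξ => ?_)
    simp only []
    ring
  · intro k _
    refine ((hg k).const_mul (c k)).bdd_mul (c := 1) (f := fun ξ => chi x ξ) ?_ ?_
    · exact (continuous_chi.comp (by fun_prop : Continuous fun ξ : ℝ => (x, ξ))).aestronglyMeasurable
    · exact Eventually.of_forall fun ξ => (norm_chi x ξ).le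

theorem filt_sum (a t : ι → ℝ) (c : K → ℂ) (g : K → ℝ → ℂ) (hg : ∀ k, Integrable (g k))
    (s x : ℝ) :
    filt a t (fun ξ => ∑ k, c k * g k ξ) s x = ∑ k, c k * filt a t (g k) s x := by
  simp only [filt_eq]
  have := fourierInv_sum c (fun k ξ => (stepM a t s ξ : ℂ) * g k ξ)
    (fun k => integrable_mult a t (hg k) s) x
  simp only [← this]
  have e : (fun ξ => (stepM a t s ξ : ℂ) * ∑ k, c k * g k ξ) =
      fun ξ => ∑ k, c k * ((stepM a t s ξ : ℂ) * g k ξ) := by
    funext ξ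
    simp only [Finset.mul_sum]
    refine Finset.sum_congr rfl fun k _ => ?_
    ring
  rw [e]

end Linear

section Family

variable {ψ ψ' : Fin N → ℝ → Fin m → ℂ}

/-- The Fourier transforms of the components of the family. -/
noncomputable def ghat (hψ : ∀ j a, IsH1 (fun x => ψ j x a) (fun x => ψ' j x a))
    (j : Fin N) (a : Fin m) : ℝ → ℂ := fhat (hψ j a).memLp

theorem norm_sq_sum_family (c : Fin N → ℂ) (g : Fin N → ℝ → ℂ) (hg : ∀ j, MemLp (g j) 2 volume) :
    (((∫ ξ, ‖∑ j, c j * g j ξ‖ ^ 2 : ℝ)) : ℂ) =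
      ∑ j, ∑ l, conj (c j) * c l * ∫ ξ, conj (g j ξ) * g l ξ := by
  rw [← integral_complex_ofReal]
  have hpt : ∀ ξ, ((‖∑ j, c j * g j ξ‖ ^ 2 : ℝ) : ℂ) =
      ∑ j, ∑ l, conj (c j) * c l * (conj (g j ξ) * g l ξ) := by
    intro ξ
    have h1 : ((‖∑ j, c j * g j ξ‖ ^ 2 : ℝ) : ℂ) =
        conj (∑ j, c j * g j ξ) * ∑ l, c l * g l ξ := by
      rw [mul_comm, Complex.mul_conj, Complex.normSq_eq_norm_sq]
    rw [h1, map_sum, Finset.sum_mul_sum]
    refine Finset.sum_congr rfl fun j _ => Finset.sum_congr rfl fun l _ => ?_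
    simp only [map_mul]
    ring
  simp only [hpt]
  have hint : ∀ j l, Integrable fun ξ => conj (g j ξ) * g l ξ := by
    intro j l
    have h2 : MemLp (fun ξ => conj (g j ξ)) 2 volume := (hg j).star
    exact h2.integrable_mul (hg l)
  rw [integral_finsetSum]
  · refine Finset.sum_congr rfl fun j _ => ?_
    rw [integral_finsetSum]
    · refine Finset.sum_congr rfl fun l _ => ?_
      rw [integral_const_mul]
    · exact fun l _ => (hint j l).const_mul _
  · exact fun j _ => integrable_finsetSum _ fun l _ => (hint j l).const_mul _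

/-- The Bessel inequality on the Fourier side, with equality for the full sum. -/
theorem bessel_family (hψ : ∀ j a, IsH1 (fun x => ψ j x a) (fun x => ψ' j x a))
    (horth : ∀ j l, ∑ a, ∫ x, conj (ψ j x a) * ψ l x a = if j = l then 1 else 0)
    (c : Fin N → ℂ) :
    ∑ a, ∫ ξ, ‖∑ j, c j * ghat hψ j a ξ‖ ^ 2 = ∑ j, ‖c j‖ ^ 2 := by
  have h1 : ((∑ a, ∫ ξ, ‖∑ j, c j * ghat hψ j a ξ‖ ^ 2 : ℝ) : ℂ) = ((∑ j, ‖c j‖ ^ 2 : ℝ) : ℂ) := by
    push_cast
    simp only [← Complex.ofReal_pow]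
    have e1 := fun a => norm_sq_sum_family c (fun j => ghat hψ j a)
      (fun j => fhat_memLp (hψ j a).memLp)
    simp only [e1]
    rw [Finset.sum_comm]
    refine Finset.sum_congr rfl fun j _ => ?_
    rw [Finset.sum_comm]
    have e2 : ∀ l, ∑ a, conj (c j) * c l * ∫ ξ, conj (ghat hψ j a ξ) * ghat hψ l a ξ =
        conj (c j) * c l * (if j = l then 1 else 0) := by
      intro l
      rw [← horth j l, Finset.mul_sum]
      refine Finset.sum_congr rfl fun a _ => ?_
      rw [ghat, ghat, fhat_inner]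
    simp only [e2]
    simp only [mul_ite, mul_one, mul_zero, Finset.sum_ite_eq, Finset.mem_univ, if_true]
    rw [mul_comm, Complex.mul_conj, Complex.normSq_eq_norm_sq]
  exact_mod_cast h1

/-- The Bessel property along a unit direction. -/
theorem bessel_direction (hψ : ∀ j a, IsH1 (fun x => ψ j x a) (fun x => ψ' j x a))
    (horth : ∀ j l, ∑ a, ∫ x, conj (ψ j x a) * ψ l x a = if j = l then 1 else 0)
    (e : Fin m → ℂ) (he : ∑ a, ‖e a‖ ^ 2 = 1) (c : Fin N → ℂ) :
    ∫ ξ, ‖∑ j, c j * ∑ a, conj (e a) * ghat hψ j a ξ‖ ^ 2 ≤ ∑ j, ‖c j‖ ^ 2 := by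
  rw [← bessel_family hψ horth c]
  have hL : ∀ a, MemLp (fun ξ => ∑ j, c j * ghat hψ j a ξ) 2 volume := fun a =>
    memLp_finsetSum _ fun j _ => (fhat_memLp (hψ j a).memLp).const_mul _
  have hLi : ∀ a, Integrable fun ξ => ‖∑ j, c j * ghat hψ j a ξ‖ ^ 2 := fun a =>
    (hL a).integrable_norm_pow (by norm_num)
  rw [← integral_finsetSum _ fun a _ => hLi a]
  refine integral_mono_of_nonneg (Eventually.of_forall fun ξ => by positivity)
    (integrable_finsetSum _ fun a _ => hLi a) (Eventually.of_forall fun ξ => ?_)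
  simp only []
  have h2 : ∑ j, c j * ∑ a, conj (e a) * ghat hψ j a ξ =
      ∑ a, conj (e a) * ∑ j, c j * ghat hψ j a ξ := by
    simp only [Finset.mul_sum]
    rw [Finset.sum_comm]
    refine Finset.sum_congr rfl fun a _ => Finset.sum_congr rfl fun j _ => ?_
    ring
  rw [h2]
  have h3 : ‖∑ a, conj (e a) * ∑ j, c j * ghat hψ j a ξ‖ ≤
      ∑ a, ‖e a‖ * ‖∑ j, c j * ghat hψ j a ξ‖ := by
    refine (norm_sum_le _ _).trans (le_of_eq ?_)
    simp only [norm_mul, RCLike.norm_conj]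
  have h4 := Finset.sum_mul_sq_le_sq_mul_sq Finset.univ (fun a => ‖e a‖)
    (fun a => ‖∑ j, c j * ghat hψ j a ξ‖)
  rw [he, one_mul] at h4
  refine (pow_le_pow_left₀ (norm_nonneg _) h3 2).trans h4

/-- The pointwise bound along one unit direction. -/
theorem direction_bound {Gp h : ℝ → ℝ} (hP : Profile Gp h) (a t : ι → ℝ)
    (hsum : ∑ i, a i = 1) (ht : ∀ i, 0 < t i) (hR : 0 < R2 a t Gp) (hH : 0 < H2 h)
    (hψ : ∀ j a, IsH1 (fun x => ψ j x a) (fun x => ψ' j x a))
    (horth : ∀ j l, ∑ a, ∫ x, conj (ψ j x a) * ψ l x a = if j = l then 1 else 0)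
    (e : Fin m → ℂ) (he : ∑ a, ‖e a‖ ^ 2 = 1) (x : ℝ) :
    ENNReal.ofReal ((16 / 729) / ((R2 a t Gp) ^ 2 * H2 h) *
        (∑ j, ‖∑ b, conj (e b) * ψ j x b‖ ^ 2) ^ 3) ≤
      ∫⁻ s in Ioi (0:ℝ), ENNReal.ofReal
        ((∑ j, ‖∑ b, conj (e b) * filt a t (ghat hψ j b) s x‖ ^ 2) * (2 * s)) := by
  set G : Fin N → ℝ → ℂ := fun j ξ => ∑ b, conj (e b) * ghat hψ j b ξ with hG
  have hg1 : ∀ j b, Integrable (ghat hψ j b) := fun j b => fhat_integrable (hψ j b)
  have hGm : ∀ j, StronglyMeasurable (G j) := fun j =>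
    Finset.stronglyMeasurable_fun_sum _ fun b _ =>
      (fhat_sm (hψ j b).memLp).const_mul _
  have hG1 : ∀ j, Integrable (G j) := fun j =>
    integrable_finsetSum _ fun b _ => (hg1 j b).const_mul _
  have hG2 : ∀ j, MemLp (G j) 2 volume := fun j =>
    memLp_finsetSum _ fun b _ => (fhat_memLp (hψ j b).memLp).const_mul _
  have hB := bessel_direction hψ horth e he
  have key := vector_bound hP a t hsum ht hR hH G hGm hG1 hG2 hB x
  have e1 : ∀ j, (𝓕⁻ (G j) : ℝ → ℂ) x = ∑ b, conj (e b) * ψ j x b := by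
    intro j
    rw [hG]
    simp only []
    rw [fourierInv_sum _ _ (hg1 j)]
    refine Finset.sum_congr rfl fun b _ => ?_
    rw [inversion (hψ j b) x]
    rfl
  have e2 : ∀ j s, filt a t (G j) s x = ∑ b, conj (e b) * filt a t (ghat hψ j b) s x := by
    intro j s
    rw [hG]
    exact filt_sum a t _ _ (hg1 j) s x
  simpa only [e1, e2] using key

/-- The scale energy density of the family at the point `x`. -/
noncomputable def tauDens (hψ : ∀ j a, IsH1 (fun x => ψ j x a) (fun x => ψ' j x a))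
    (a t : ι → ℝ) (x : ℝ) : ℝ≥0∞ :=
  ∫⁻ s in Ioi (0:ℝ), ENNReal.ofReal
    ((∑ j, ∑ b, ‖filt a t (ghat hψ j b) s x‖ ^ 2) * (2 * s))

/-- Summing over an eigenbasis. -/
theorem density_bound {Gp h : ℝ → ℝ} (hP : Profile Gp h) (a t : ι → ℝ)
    (hsum : ∑ i, a i = 1) (ht : ∀ i, 0 < t i) (hR : 0 < R2 a t Gp) (hH : 0 < H2 h)
    (hψ : ∀ j a, IsH1 (fun x => ψ j x a) (fun x => ψ' j x a))
    (horth : ∀ j l, ∑ a, ∫ x, conj (ψ j x a) * ψ l x a = if j = l then 1 else 0)
    {A : Matrix (Fin m) (Fin m) ℂ} (hA : A.IsHermitian) (x : ℝ) :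
    ∑ k, ENNReal.ofReal ((16 / 729) / ((R2 a t Gp) ^ 2 * H2 h) *
        (∑ j, ‖ecoef hA k (ψ j x)‖ ^ 2) ^ 3) ≤ tauDens hψ a t x := by
  have h1 : ∀ k, ENNReal.ofReal ((16 / 729) / ((R2 a t Gp) ^ 2 * H2 h) *
        (∑ j, ‖ecoef hA k (ψ j x)‖ ^ 2) ^ 3) ≤
      ∫⁻ s in Ioi (0:ℝ), ENNReal.ofReal
        ((∑ j, ‖ecoef hA k (fun b => filt a t (ghat hψ j b) s x)‖ ^ 2) * (2 * s)) := by
    intro k
    exact direction_bound hP a t hsum ht hR hH hψ horth (fun b => hA.eigenvectorBasis k b)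
      (sum_eigvec_sq hA k) x
  refine (Finset.sum_le_sum fun k _ => h1 k).trans ?_
  have hm : ∀ k, Measurable fun s => ENNReal.ofReal
        ((∑ j, ‖ecoef hA k (fun b => filt a t (ghat hψ j b) s x)‖ ^ 2) * (2 * s)) := by
    intro k
    refine ENNReal.measurable_ofReal.comp (Measurable.mul ?_ (by fun_prop))
    refine Finset.measurable_sum _ fun j _ => Measurable.pow_const (Measurable.norm ?_) 2
    unfold ecoef
    refine Finset.measurable_sum _ fun b _ => Measurable.const_mul ?_ _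
    exact measurable_filt_scale a t (fhat_sm (hψ j b).memLp) x
  rw [← lintegral_finsetSum _ fun k _ => hm k]
  refine setLIntegral_mono' measurableSet_Ioi fun s hs => ?_
  have hs' : (0:ℝ) < s := hs
  rw [← ENNReal.ofReal_sum_of_nonneg fun k _ => by positivity]
  refine ENNReal.ofReal_le_ofReal (le_of_eq ?_)
  rw [← Finset.sum_mul, Finset.sum_comm]
  congr 1
  refine Finset.sum_congr rfl fun j _ => ?_
  exact sum_ecoef_sq hA _

/-- The total scale energy of the family. -/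
theorem tau_total (a t : ι → ℝ) (ht : ∀ i, 0 < t i)
    (hψ : ∀ j a, IsH1 (fun x => ψ j x a) (fun x => ψ' j x a)) :
    ∫⁻ x, tauDens hψ a t x =
      ENNReal.ofReal (cStep a t / (2 * π) ^ 2 * ∑ j, ∑ b, ∫ x, ‖ψ' j x b‖ ^ 2) := by
  have hsplit : ∀ x, tauDens hψ a t x = ∑ j, ∑ b, ∫⁻ s in Ioi (0:ℝ), ENNReal.ofReal
      (‖filt a t (ghat hψ j b) s x‖ ^ 2 * (2 * s)) := by
    intro x
    unfold tauDens
    have hmeas : ∀ j b, Measurable fun s => ENNReal.ofReal
        (‖filt a t (ghat hψ j b) s x‖ ^ 2 * (2 * s)) := by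
      intro j b
      refine ENNReal.measurable_ofReal.comp (Measurable.mul ?_ (by fun_prop))
      exact (measurable_filt_scale a t (fhat_sm (hψ j b).memLp) x).norm.pow_const 2
    simp only [← lintegral_finsetSum _ fun b _ => hmeas _ b]
    rw [← lintegral_finsetSum _ fun j _ =>
      Finset.measurable_sum _ fun b _ => hmeas j b]
    refine setLIntegral_congr_fun measurableSet_Ioi fun s hs => ?_
    have hs' : (0:ℝ) < s := hs
    rw [Finset.sum_mul, ENNReal.ofReal_sum_of_nonneg fun j _ => by positivity]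
    refine Finset.sum_congr rfl fun j _ => ?_
    rw [Finset.sum_mul, ENNReal.ofReal_sum_of_nonneg fun b _ => by positivity]
  simp only [hsplit]
  have hmx : ∀ j b, Measurable fun x => ∫⁻ s in Ioi (0:ℝ), ENNReal.ofReal
      (‖filt a t (ghat hψ j b) s x‖ ^ 2 * (2 * s)) := by
    intro j b
    have h0 : Measurable fun p : ℝ × ℝ => filt a t (ghat hψ j b) p.2 p.1 :=
      measurable_filt_swap a t (fhat_sm (hψ j b).memLp)
    have h1 : Measurable fun p : ℝ × ℝ => ‖filt a t (ghat hψ j b) p.2 p.1‖ := h0.norm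
    have h2 : Measurable fun p : ℝ × ℝ => 2 * p.2 := by fun_prop
    have h3 : Measurable fun p : ℝ × ℝ => ENNReal.ofReal
        (‖filt a t (ghat hψ j b) p.2 p.1‖ ^ 2 * (2 * p.2)) :=
      ENNReal.measurable_ofReal.comp ((h1.pow_const 2).mul h2)
    exact h3.lintegral_prod_right'
  rw [lintegral_finsetSum _ fun j _ => Finset.measurable_sum _ fun b _ => hmx j b]
  simp only [lintegral_finsetSum _ fun b _ => hmx _ b]
  have hE : ∀ j b, ∫⁻ x, ∫⁻ s in Ioi (0:ℝ), ENNReal.ofReal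
      (‖filt a t (ghat hψ j b) s x‖ ^ 2 * (2 * s)) =
      ENNReal.ofReal (cStep a t / (2 * π) ^ 2 * ∫ x, ‖ψ' j x b‖ ^ 2) := by
    intro j b
    have h3 : Integrable fun ξ : ℝ => ξ ^ 2 * ‖ghat hψ j b ξ‖ ^ 2 := by
      have h4 := (fhat_mul_memLp (hψ j b)).integrable_norm_pow (by norm_num)
      refine h4.congr (Eventually.of_forall fun ξ => ?_)
      simp only [norm_mul, Complex.norm_real, Real.norm_eq_abs, mul_pow, sq_abs]
      rfl
    rw [energy_lintegral a t ht (g := ghat hψ j b) (fhat_sm (hψ j b).memLp)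
      (fhat_integrable (hψ j b)) (fhat_memLp (hψ j b).memLp) h3]
    have hk : ∫ x, ‖ψ' j x b‖ ^ 2 = (2 * π) ^ 2 * ∫ ξ, ξ ^ 2 * ‖ghat hψ j b ξ‖ ^ 2 :=
      kinetic_eq (hψ j b)
    rw [hk]
    congr 1
    have hpi : (2 * π) ^ 2 ≠ 0 := by positivity
    field_simp
  simp only [hE]
  have hnn : ∀ j b, 0 ≤ cStep a t / (2 * π) ^ 2 * ∫ x, ‖ψ' j x b‖ ^ 2 := by
    intro j b
    have := cStep_nonneg a t ht
    have h5 : 0 ≤ ∫ x, ‖ψ' j x b‖ ^ 2 := integral_nonneg fun x => by positivity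
    positivity
  simp only [Finset.mul_sum]
  rw [ENNReal.ofReal_sum_of_nonneg fun j _ => Finset.sum_nonneg fun b _ => hnn j b]
  refine Finset.sum_congr rfl fun j _ => ?_
  rw [ENNReal.ofReal_sum_of_nonneg fun b _ => hnn j b]

end Family

end Vale.Agent.Lib.P371
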