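import Vale.Agent.Lib.P371.Rational

/-!
The main inequality from rational data.
-/

open MeasureTheory Matrix Set Filter
open scoped ComplexConjugate Real ComplexOrder

namespace Vale.Agent.Lib.P371

variable {m N : ℕ} {ι : Type*} [Fintype ι]

theorem cert_bound {g : ℕ → ℚ} {n : ℕ} {a t : ι → ℚ} {r Rb cb : ℚ} (hc : Cert g n a t r Rb cb)
    (W : ℝ → Matrix (Fin m) (Fin m) ℂ) (hW : ∀ x, (W x).PosSemidef)
    (hWm : ∀ a b, Measurable fun x => W x a b)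
    (hWp : Integrable fun x => ∑ k, ((hW x).isHermitian.eigenvalues k) ^ (3 / 2 : ℝ))
    {ψ ψ' : Fin N → ℝ → Fin m → ℂ}
    (hψ : ∀ j a, IsH1 (fun x => ψ j x a) (fun x => ψ' j x a))
    (horth : ∀ j l, ∑ a, ∫ x, conj (ψ j x a) * ψ l x a = if j = l then 1 else 0) :
    (∀ j, Integrable fun x => (star (ψ j x) ⬝ᵥ (W x *ᵥ ψ j x)).re) ∧
    (∑ j, ∫ x, (star (ψ j x) ⬝ᵥ (W x *ᵥ ψ j x)).re) - ∑ j, ∑ b, ∫ x, ‖ψ' j x b‖ ^ 2 ≤
      ((r : ℝ) * (2 / (3 * π))) * ∫ x, ∑ k, ((hW x).isHermitian.eigenvalues k) ^ (3 / 2 : ℝ) := by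
  have hg1 : (fun k => (g k : ℝ)) 1 = 0 := by simp [hc.hg1]
  have hG0 : polyG (fun k => (g k : ℝ)) n 0 = 1 := by
    have h := cast_polyGQ g n 0
    rw [hc.hG0] at h
    simpa using h.symm
  have hG1 : polyG (fun k => (g k : ℝ)) n 1 = 0 := by
    have h := cast_polyGQ g n 1
    rw [hc.hG1] at h
    simpa using h.symm
  have hP := polyProfile (fun k => (g k : ℝ)) n hg1 hG0 hG1
  have ht : ∀ i, 0 < (t i : ℝ) := fun i => by exact_mod_cast hc.ht i
  have hsum : ∑ i, (a i : ℝ) = 1 := by exact_mod_cast hc.hsum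
  have eR := cast_R2Q g n hP a t hc.ht
  have eH := cast_H2Q g n
  have ec := cast_cQ a t
  have hR : 0 < R2 (fun i => (a i : ℝ)) (fun i => (t i : ℝ)) (polyG (fun k => (g k : ℝ)) n) :=
    R2_pos hP _ _ ht hsum
  have hH : 0 < H2 (polyH (fun k => (g k : ℝ)) n) := by
    rw [← eH]; exact_mod_cast hc.hH
  have hcc : 0 < cStep (fun i => (a i : ℝ)) (fun i => (t i : ℝ)) := cStep_pos _ _ ht hsum
  have hr : (0:ℝ) < r := by exact_mod_cast hc.hr
  have hmain : (R2 (fun i => (a i : ℝ)) (fun i => (t i : ℝ)) (polyG (fun k => (g k : ℝ)) n)) ^ 2 *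
      H2 (polyH (fun k => (g k : ℝ)) n) * cStep (fun i => (a i : ℝ)) (fun i => (t i : ℝ)) ≤
      (64 / 243) * (r : ℝ) ^ 2 := by
    have h1 : R2 (fun i => (a i : ℝ)) (fun i => (t i : ℝ)) (polyG (fun k => (g k : ℝ)) n) ≤ Rb := by
      rw [← eR]; exact_mod_cast hc.hRb
    have h2 : cStep (fun i => (a i : ℝ)) (fun i => (t i : ℝ)) ≤ cb := by
      rw [← ec]; exact_mod_cast hc.hcb
    have h3 := (Rat.cast_le (K := ℝ)).2 hc.hmain
    push_cast at h3
    rw [eH] at h3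
    refine le_trans ?_ h3
    have h4 := pow_le_pow_left₀ hR.le h1 2
    have h5 := mul_le_mul_of_nonneg_right h4 hH.le
    exact mul_le_mul h5 h2 hcc.le (mul_nonneg (sq_nonneg _) hH.le)
  refine main_bound hP (fun i => (a i : ℝ)) (fun i => (t i : ℝ)) hsum ht hR hH hcc
    (C := (r : ℝ) * (2 / (3 * π))) (by positivity) ?_ W hW hWm hWp hψ horth
  set R := R2 (fun i => (a i : ℝ)) (fun i => (t i : ℝ)) (polyG (fun k => (g k : ℝ)) n)
  set H := H2 (polyH (fun k => (g k : ℝ)) n)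
  set c := cStep (fun i => (a i : ℝ)) (fun i => (t i : ℝ))
  have hpi : π ≠ 0 := Real.pi_ne_zero
  have e1 : 27 * (((16 / 729) / (R ^ 2 * H)) * ((2 * π) ^ 2 / c)) * ((r : ℝ) * (2 / (3 * π))) ^ 2 =
      (256 / 243) * (r : ℝ) ^ 2 / (R ^ 2 * H * c) := by
    field_simp
    ring
  rw [e1, le_div_iff₀ (by positivity)]
  linarith

end Vale.Agent.Lib.P371
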