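import Mathlib

/-!
Definitions for the matrix one-dimensional eigenvalue-sum bound.
-/

open MeasureTheory Matrix
open scoped ComplexConjugate

namespace Vale.Agent.Lib.P371

/-- `u ∈ H¹(ℝ)` with weak derivative `u'`: both are square integrable and `u` is the
primitive of `u'` (so `u` is the continuous representative). -/
structure IsH1 (u u' : ℝ → ℂ) : Prop where
  memLp : MemLp u 2 volume
  memLp_deriv : MemLp u' 2 volume
  ftc : ∀ a b : ℝ, ∫ x in a..b, u' x = u b - u a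

/-- `ψ ∈ H¹(ℝ; ℂ^m)` with weak derivative `ψ'`, componentwise. -/
def IsH1Vec {m : ℕ} (ψ ψ' : ℝ → Fin m → ℂ) : Prop :=
  ∀ a, IsH1 (fun x => ψ x a) (fun x => ψ' x a)

/-- The inner product of `L²(ℝ; ℂ^m)`. -/
noncomputable def ipL2 {m : ℕ} (φ ψ : ℝ → Fin m → ℂ) : ℂ :=
  ∑ a, ∫ x, conj (φ x a) * ψ x a

/-- `ψ` (with weak derivative `ψ'`) is an eigenfunction of the operator `-d²/dx² - W` with
eigenvalue `lam`, in the sense of the form `∫ ‖ψ'‖² - ∫ ⟨ψ, W ψ⟩` with form domain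
`H¹(ℝ; ℂ^m)`. -/
def IsFormEigenpair {m : ℕ} (W : ℝ → Matrix (Fin m) (Fin m) ℂ) (lam : ℝ)
    (ψ ψ' : ℝ → Fin m → ℂ) : Prop :=
  IsH1Vec ψ ψ' ∧ ∀ φ φ' : ℝ → Fin m → ℂ, IsH1Vec φ φ' →
    ipL2 φ' ψ' - ∫ x, star (φ x) ⬝ᵥ (W x *ᵥ ψ x) = (lam : ℂ) * ipL2 φ ψ

end Vale.Agent.Lib.P371
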