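import Vale.Agent.Lib.P371.Multiplier

/-!
Energy identities for the step multipliers.
-/

open MeasureTheory FourierTransform Set Filter Topology
open scoped ENNReal RealInnerProductSpace Real

namespace Vale.Agent.Lib.P371

variable {ι : Type*} [Fintype ι]

/-- The constant of the scale partition. -/
noncomputable def cStep (a t : ι → ℝ) : ℝ :=
  ∑ i, ∑ l, a i * a l / (max (t i) (t l)) ^ 2

/-- One pair of levels in the partition integral. -/
theorem pair_integral {τ σ : ℝ} (hτ : 0 < τ) (y : ℝ) :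
    IntegrableOn (fun s => (if τ * s < |y| then (1:ℝ) else 0) * (if σ * s < |y| then (1:ℝ) else 0)
        * (2 * s)) (Ioi 0) ∧
    ∫ s in Ioi (0:ℝ), (if τ * s < |y| then (1:ℝ) else 0) * (if σ * s < |y| then (1:ℝ) else 0)
        * (2 * s) = y ^ 2 / (max τ σ) ^ 2 := by
  set M := max τ σ with hM
  have hMpos : 0 < M := lt_max_of_lt_left hτ
  set z := |y| / M with hz
  have hz0 : 0 ≤ z := by positivity
  have hcond : ∀ s, 0 < s → ((τ * s < |y|) ∧ (σ * s < |y|) ↔ s < z) := by
    intro s hs
    rw [hz, lt_div_iff₀ hMpos]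
    constructor
    · rintro ⟨h1, h2⟩
      rcases max_cases τ σ with ⟨h3, _⟩ | ⟨h3, _⟩
      · rw [hM, h3, mul_comm]; exact h1
      · rw [hM, h3, mul_comm]; exact h2
    · intro h
      constructor
      · have : τ * s ≤ M * s := mul_le_mul_of_nonneg_right (le_max_left _ _) hs.le
        linarith [mul_comm s M]
      · have : σ * s ≤ M * s := mul_le_mul_of_nonneg_right (le_max_right _ _) hs.le
        linarith [mul_comm s M]
  have hfun : ∀ s ∈ Ioi (0:ℝ), (if τ * s < |y| then (1:ℝ) else 0) * (if σ * s < |y| then (1:ℝ) else 0)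
        * (2 * s) = (Iio z).indicator (fun s => 2 * s) s := by
    intro s hs
    have hs' : (0:ℝ) < s := hs
    have h3 := hcond s hs'
    by_cases h : s < z
    · have h4 := h3.2 h
      simp [Set.indicator, h, h4.1, h4.2]
    · have h4 : ¬ ((τ * s < |y|) ∧ (σ * s < |y|)) := fun h5 => h (h3.1 h5)
      have h5 : (if τ * s < |y| then (1:ℝ) else 0) * (if σ * s < |y| then (1:ℝ) else 0) = 0 := by
        by_cases h6 : τ * s < |y|
        · have h7 : ¬ σ * s < |y| := fun h8 => h4 ⟨h6, h8⟩
          simp [h7]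
        · simp [h6]
      rw [h5]
      simp [Set.indicator, h]
  have hset : Ioi (0:ℝ) ∩ Iio z = Ioo 0 z := by
    ext s; simp [mem_Ioo]
  constructor
  · have hi : IntegrableOn ((Iio z).indicator (fun s : ℝ => 2 * s)) (Ioi 0) := by
      rw [IntegrableOn, integrable_indicator_iff measurableSet_Iio, IntegrableOn,
        Measure.restrict_restrict measurableSet_Iio, Set.inter_comm, hset]
      exact ((by fun_prop : Continuous fun s : ℝ => 2 * s).integrableOn_Icc).mono_set
        Ioo_subset_Icc_self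
    exact hi.congr_fun (fun s hs => (hfun s hs).symm) measurableSet_Ioi
  · rw [setIntegral_congr_fun measurableSet_Ioi hfun, setIntegral_indicator measurableSet_Iio, hset,
      ← integral_Ioc_eq_integral_Ioo, ← intervalIntegral.integral_of_le hz0]
    have : ∫ s in (0:ℝ)..z, 2 * s = z ^ 2 := by
      rw [intervalIntegral.integral_const_mul, integral_id]; ring
    rw [this, hz, div_pow, sq_abs]

/-- The partition of the kinetic energy along the scales. -/
theorem step_partition (a t : ι → ℝ) (ht : ∀ i, 0 < t i) (y : ℝ) :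
    IntegrableOn (fun s => (stepM a t s y) ^ 2 * (2 * s)) (Ioi 0) ∧
    ∫ s in Ioi (0:ℝ), (stepM a t s y) ^ 2 * (2 * s) = cStep a t * y ^ 2 := by
  have hexp : ∀ s, (stepM a t s y) ^ 2 * (2 * s) = ∑ i, ∑ l, a i * a l *
      ((if t i * s < |y| then (1:ℝ) else 0) * (if t l * s < |y| then (1:ℝ) else 0) * (2 * s)) := by
    intro s
    rw [sq, stepM, Finset.sum_mul_sum, Finset.sum_mul]
    refine Finset.sum_congr rfl fun i _ => ?_
    rw [Finset.sum_mul]
    refine Finset.sum_congr rfl fun l _ => ?_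
    ring
  have hint : ∀ i l, IntegrableOn (fun s => a i * a l *
      ((if t i * s < |y| then (1:ℝ) else 0) * (if t l * s < |y| then (1:ℝ) else 0) * (2 * s)))
      (Ioi 0) := fun i l => (pair_integral (σ := t l) (ht i) y).1.const_mul _
  simp only [hexp]
  constructor
  · exact integrable_finsetSum _ fun i _ => integrable_finsetSum _ fun l _ => hint i l
  · rw [integral_finsetSum _ fun i _ => integrable_finsetSum _ fun l _ => hint i l]
    simp only [integral_finsetSum _ fun l _ => hint _ l]
    simp only [integral_const_mul, (pair_integral (ht _) y).2, cStep, Finset.sum_mul]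
    refine Finset.sum_congr rfl fun i _ => Finset.sum_congr rfl fun l _ => ?_
    ring

theorem cStep_nonneg (a t : ι → ℝ) (ht : ∀ i, 0 < t i) : 0 ≤ cStep a t := by
  have h := (step_partition a t ht 1).2
  simp only [one_pow, mul_one] at h
  rw [← h]
  refine setIntegral_nonneg measurableSet_Ioi fun s hs => ?_
  have hs' : (0:ℝ) < s := hs
  positivity

/-- The kinetic energy bound as an exact lintegral. -/
theorem energy_lintegral (a t : ι → ℝ) (ht : ∀ i, 0 < t i) {g : ℝ → ℂ} (hgm : StronglyMeasurable g)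
    (h1 : Integrable g) (h2 : MemLp g 2 volume)
    (h3 : Integrable fun ξ : ℝ => ξ ^ 2 * ‖g ξ‖ ^ 2) :
    ∫⁻ x, ∫⁻ s in Ioi (0:ℝ), ENNReal.ofReal (‖filt a t g s x‖ ^ 2 * (2 * s)) =
      ENNReal.ofReal (cStep a t * ∫ ξ, ξ ^ 2 * ‖g ξ‖ ^ 2) := by
  have hF : Measurable (fun p : ℝ × ℝ => ENNReal.ofReal (‖filt a t g p.2 p.1‖ ^ 2 * (2 * p.2))) := by
    have h01 : Measurable fun p : ℝ × ℝ => filt a t g p.2 p.1 := measurable_filt_swap a t hgm
    have h03 : Measurable fun p : ℝ × ℝ => ‖filt a t g p.2 p.1‖ := h01.norm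
    have h04 : Measurable fun p : ℝ × ℝ => 2 * p.2 := by fun_prop
    exact ENNReal.measurable_ofReal.comp ((h03.pow_const 2).mul h04)
  rw [lintegral_lintegral_swap hF.aemeasurable]
  have hstep1 : ∀ s ∈ Ioi (0:ℝ), ∫⁻ x, ENNReal.ofReal (‖filt a t g s x‖ ^ 2 * (2 * s)) =
      ∫⁻ ξ, ENNReal.ofReal ((stepM a t s ξ) ^ 2 * (2 * s) * ‖g ξ‖ ^ 2) := by
    intro s hs
    have hs' : (0:ℝ) < s := hs
    have i1 : Integrable fun x => ‖filt a t g s x‖ ^ 2 * (2 * s) :=
      ((filt_memLp a t h1 h2 s).integrable_norm_pow (by norm_num)).mul_const _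
    have hgi : Integrable fun ξ => ‖g ξ‖ ^ 2 := h2.integrable_norm_pow (by norm_num)
    have i2 : Integrable fun ξ => (stepM a t s ξ) ^ 2 * (2 * s) * ‖g ξ‖ ^ 2 := by
      have hb : ∀ ξ, ‖(stepM a t s ξ) ^ 2 * (2 * s)‖ ≤ (∑ i, |a i|) ^ 2 * (2 * s) := by
        intro ξ
        rw [Real.norm_eq_abs, abs_mul, abs_pow, abs_of_pos (by positivity : 0 < 2 * s)]
        exact mul_le_mul_of_nonneg_right
          (pow_le_pow_left₀ (abs_nonneg _) (abs_stepM_le a t s ξ) 2) (by positivity)
      refine hgi.bdd_mul (c := (∑ i, |a i|) ^ 2 * (2 * s)) ?_ (Eventually.of_forall hb)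
      have : Measurable fun ξ => stepM a t s ξ :=
        (measurable_stepM a t).comp (by fun_prop : Measurable fun ξ : ℝ => (s, ξ))
      exact ((this.pow_const 2).mul_const _).aestronglyMeasurable
    rw [← ofReal_integral_eq_lintegral_ofReal i1 (Eventually.of_forall fun x => by positivity),
      ← ofReal_integral_eq_lintegral_ofReal i2 (Eventually.of_forall fun x => by positivity)]
    congr 1
    rw [integral_mul_const, filt_norm_sq a t h1 h2 s, ← integral_mul_const]
    refine integral_congr_ae (Eventually.of_forall fun ξ => ?_)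
    simp only []
    ring
  rw [setLIntegral_congr_fun measurableSet_Ioi hstep1]
  have hG : Measurable (fun p : ℝ × ℝ => ENNReal.ofReal ((stepM a t p.1 p.2) ^ 2 * (2 * p.1) * ‖g p.2‖ ^ 2)) := by
    refine ENNReal.measurable_ofReal.comp ?_
    refine (((measurable_stepM a t).pow_const 2).mul (measurable_const.mul measurable_fst)).mul ?_
    exact ((hgm.measurable.comp measurable_snd).norm.pow_const 2)
  rw [lintegral_lintegral_swap hG.aemeasurable]
  have hstep2 : ∀ ξ, ∫⁻ s in Ioi (0:ℝ), ENNReal.ofReal ((stepM a t s ξ) ^ 2 * (2 * s) * ‖g ξ‖ ^ 2) =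
      ENNReal.ofReal (cStep a t * (ξ ^ 2 * ‖g ξ‖ ^ 2)) := by
    intro ξ
    have ⟨i3, e3⟩ := step_partition a t ht ξ
    have i4 : IntegrableOn (fun s => (stepM a t s ξ) ^ 2 * (2 * s) * ‖g ξ‖ ^ 2) (Ioi 0) :=
      i3.mul_const _
    rw [← ofReal_integral_eq_lintegral_ofReal i4 ?_]
    · rw [integral_mul_const, e3]
      ring_nf
    · refine (ae_restrict_iff' measurableSet_Ioi).2 (Eventually.of_forall fun s hs => ?_)
      have hs' : (0:ℝ) < s := hs
      simp only [Pi.zero_apply]
      positivity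
  simp only [hstep2]
  rw [← ofReal_integral_eq_lintegral_ofReal (h3.const_mul _) (Eventually.of_forall fun ξ => ?_),
    integral_const_mul]
  have := cStep_nonneg a t ht
  simp only [Pi.zero_apply]
  positivity

end Vale.Agent.Lib.P371
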