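import Vale.Agent.Lib.P371.Tables

/-!
Exact evaluation of the constants by linear recursions.
-/

open Finset

namespace Vale.Agent.Lib.P371

/-- The recursion for the `k`-th moment. -/
def loopK (a t : ℕ → ℚ) (ρ : ℚ) : ℕ → ℚ × ℚ
  | 0 => (0, 0)
  | L + 1 =>
    let p := loopK a t ρ L
    ((p.1 + a L * t L) * ρ, p.2 + a L * (a L * t L + 2 * p.1))

/-- The recursion for the partition constant. -/
def loopC (a t : ℕ → ℚ) : ℕ → ℚ × ℚ
  | 0 => (0, 0)
  | L + 1 =>
    let p := loopC a t L
    (p.1 + a L, p.2 + a L * (a L + 2 * p.1) / t L ^ 2)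

/-- Double sums over an initial segment, one step. -/
theorem double_step (f : ℕ → ℕ → ℚ) (L : ℕ) :
    ∑ i ∈ range (L + 1), ∑ l ∈ range (L + 1), f i l =
      ∑ i ∈ range L, ∑ l ∈ range L, f i l + ∑ i ∈ range L, f i L + ∑ l ∈ range L, f L l + f L L := by
  rw [sum_range_succ, sum_range_succ (f L)]
  simp only [sum_range_succ (fun l => f _ l)]
  rw [sum_add_distrib]
  ring

/-- The moment kernel. -/
def kapK (t : ℕ → ℚ) (k i l : ℕ) : ℚ := (min (t i) (t l)) ^ (k + 1) / (max (t i) (t l)) ^ k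

theorem loopK_spec {a t : ℕ → ℚ} {ρ : ℚ} {k : ℕ} (hmono : Monotone t) (hpos : ∀ i, 0 < t i)
    (hρ : ∀ l, ρ = (t l / t (l + 1)) ^ k) (L : ℕ) :
    (loopK a t ρ L).1 = ∑ i ∈ range L, a i * (t i ^ (k + 1) / t L ^ k) ∧
    (loopK a t ρ L).2 = ∑ i ∈ range L, ∑ l ∈ range L, a i * a l * kapK t k i l := by
  induction L with
  | zero => simp [loopK]
  | succ L ih =>
    obtain ⟨h1, h2⟩ := ih
    have hL := hpos L
    have hL1 := hpos (L + 1)
    constructor
    · simp only [loopK]
      rw [h1, sum_range_succ, hρ L, add_mul, sum_mul]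
      congr 1
      · refine sum_congr rfl fun i _ => ?_
        rw [div_pow]
        field_simp
      · rw [div_pow]
        field_simp
        ring
    · simp only [loopK]
      rw [h1, h2, double_step]
      have e1 : ∀ i ∈ range L, a i * a L * kapK t k i L = a L * (a i * (t i ^ (k + 1) / t L ^ k)) := by
        intro i hi
        have hle : t i ≤ t L := hmono (mem_range.1 hi).le
        unfold kapK
        rw [min_eq_left hle, max_eq_right hle]
        ring
      have e2 : ∀ l ∈ range L, a L * a l * kapK t k L l = a L * (a l * (t l ^ (k + 1) / t L ^ k)) := by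
        intro l hl
        have hle : t l ≤ t L := hmono (mem_range.1 hl).le
        unfold kapK
        rw [min_eq_right hle, max_eq_left hle]
        ring
      rw [sum_congr rfl e1, sum_congr rfl e2, ← mul_sum]
      have e3 : a L * a L * kapK t k L L = a L * (a L * t L) := by
        unfold kapK
        rw [min_self, max_self, pow_succ]
        field_simp
      rw [e3]
      ring

theorem loopC_spec {a t : ℕ → ℚ} (hmono : Monotone t) (L : ℕ) :
    (loopC a t L).1 = ∑ i ∈ range L, a i ∧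
    (loopC a t L).2 = ∑ i ∈ range L, ∑ l ∈ range L, a i * a l / (max (t i) (t l)) ^ 2 := by
  induction L with
  | zero => simp [loopC]
  | succ L ih =>
    obtain ⟨h1, h2⟩ := ih
    constructor
    · simp only [loopC]
      rw [h1, sum_range_succ]
    · simp only [loopC]
      rw [h1, h2, double_step]
      have e1 : ∀ i ∈ range L, a i * a L / (max (t i) (t L)) ^ 2 = a L * a i / t L ^ 2 := by
        intro i hi
        have hle : t i ≤ t L := hmono (mem_range.1 hi).le
        rw [max_eq_right hle]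
        ring
      have e2 : ∀ l ∈ range L, a L * a l / (max (t L) (t l)) ^ 2 = a L * a l / t L ^ 2 := by
        intro l hl
        have hle : t l ≤ t L := hmono (mem_range.1 hl).le
        rw [max_eq_left hle]
      rw [sum_congr rfl e1, sum_congr rfl e2, max_self, ← sum_div, ← mul_sum]
      ring

/-- The pair value as a sum of moments. -/
theorem pairQ_eq_moments (g : ℕ → ℚ) (n : ℕ) (A B : ℚ) :
    pairQ g n A B = 2 * ∑ k ∈ range n, gammaC g n k *
      ((min A B) ^ (k + 1) / (max A B) ^ k) := by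
  unfold pairQ
  rw [gammaQ_eq_sum, mul_sum]
  congr 1
  refine sum_congr rfl fun k _ => ?_
  rw [div_pow, pow_succ]
  ring

/-- The fast form of the remainder constant. -/
def R2Fast (g : ℕ → ℚ) (n L : ℕ) (a t : ℕ → ℚ) (q : ℚ) : ℚ :=
  2 * ∑ k ∈ range n, gammaC g n k * (loopK a t ((1 / q) ^ k) L).2

theorem R2Q_eq_fast (g : ℕ → ℚ) (n L : ℕ) (a t : ℕ → ℚ) {q : ℚ} (hmono : Monotone t)
    (hpos : ∀ i, 0 < t i) (hq : ∀ l, t l / t (l + 1) = 1 / q) :
    R2Q g n (fun i : Fin L => a i) (fun i : Fin L => t i) = R2Fast g n L a t q := by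
  have e : R2Q g n (fun i : Fin L => a i) (fun i : Fin L => t i) =
      ∑ i ∈ range L, ∑ l ∈ range L, a i * a l * pairQ g n (t i) (t l) := by
    calc R2Q g n (fun i : Fin L => a i) (fun i : Fin L => t i)
        = ∑ i : Fin L, ∑ l : Fin L, a i * a l * pairQ g n (t i) (t l) := rfl
      _ = ∑ i ∈ range L, ∑ l : Fin L, a i * a l * pairQ g n (t i) (t l) :=
          Fin.sum_univ_eq_sum_range (fun i => ∑ l : Fin L, a i * a l * pairQ g n (t i) (t l)) L
      _ = _ := sum_congr rfl fun i _ =>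
          Fin.sum_univ_eq_sum_range (fun l => a i * a l * pairQ g n (t i) (t l)) L
  rw [e]
  unfold R2Fast
  have h1 : ∀ k, (loopK a t ((1 / q) ^ k) L).2 =
      ∑ i ∈ range L, ∑ l ∈ range L, a i * a l * kapK t k i l := fun k =>
    (loopK_spec hmono hpos (fun l => by rw [hq l]) L).2
  have e2 : ∀ i l, a i * a l * pairQ g n (t i) (t l) =
      ∑ k ∈ range n, 2 * (gammaC g n k * (a i * a l * kapK t k i l)) := by
    intro i l
    rw [pairQ_eq_moments, mul_sum, mul_sum]
    refine sum_congr rfl fun k _ => ?_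
    unfold kapK
    ring
  simp only [h1, e2, mul_sum]
  conv_rhs => rw [sum_comm]
  refine sum_congr rfl fun i _ => ?_
  exact sum_comm

theorem cQ_eq_fast (L : ℕ) (a t : ℕ → ℚ) (hmono : Monotone t) :
    cQ (fun i : Fin L => a i) (fun i : Fin L => t i) = (loopC a t L).2 := by
  rw [(loopC_spec hmono L).2]
  calc cQ (fun i : Fin L => a i) (fun i : Fin L => t i)
      = ∑ i : Fin L, ∑ l : Fin L, a i * a l / (max (t i) (t l)) ^ 2 := rfl
    _ = ∑ i ∈ range L, ∑ l : Fin L, a i * a l / (max (t i) (t l)) ^ 2 :=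
        Fin.sum_univ_eq_sum_range (fun i => ∑ l : Fin L, a i * a l / (max (t i) (t l)) ^ 2) L
    _ = _ := sum_congr rfl fun i _ =>
        Fin.sum_univ_eq_sum_range (fun l => a i * a l / (max (t i) (t l)) ^ 2) L

/-- The geometric grid. -/
def gridT (t0 q : ℚ) (i : ℕ) : ℚ := t0 * q ^ i

/-- The exact certificate in the fast form, for a geometric grid. -/
structure FastCert (g : ℕ → ℚ) (n L : ℕ) (a : ℕ → ℚ) (q t0 r : ℚ) : Prop where
  hq : 1 ≤ q
  ht0 : 0 < t0
  hg1 : g 1 = 0
  hPG0 : polyGQ g n 0 = 1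
  hPG1 : polyGQ g n 1 = 0
  hH : 0 < H2Q g n
  hr : 0 < r
  hsum : (loopC a (gridT t0 q) L).1 = 1
  hmain : (R2Fast g n L a (gridT t0 q) q) ^ 2 * H2Q g n * (loopC a (gridT t0 q) L).2 ≤
    (64 / 243) * r ^ 2

theorem FastCert.cert {g : ℕ → ℚ} {n L : ℕ} {a : ℕ → ℚ} {q t0 r : ℚ} (h : FastCert g n L a q t0 r) :
    Cert g n (fun i : Fin L => a i) (fun i : Fin L => gridT t0 q i) r
      (R2Fast g n L a (gridT t0 q) q) (loopC a (gridT t0 q) L).2 := by
  have hqpos : 0 < q := lt_of_lt_of_le one_pos h.hq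
  have hpos : ∀ i : ℕ, 0 < gridT t0 q i := fun i => mul_pos h.ht0 (pow_pos hqpos i)
  have hmono : Monotone (gridT t0 q) := fun i l hil =>
    mul_le_mul_of_nonneg_left (pow_le_pow_right₀ h.hq hil) h.ht0.le
  have hrat : ∀ l : ℕ, gridT t0 q l / gridT t0 q (l + 1) = 1 / q := by
    intro l
    have h0 := h.ht0
    unfold gridT
    simp only [pow_succ]
    field_simp
  refine ⟨fun i => hpos i, h.hg1, h.hPG0, h.hPG1, ?_, h.hH, h.hr, ?_, ?_, h.hmain⟩
  · have h1 := (loopC_spec (a := a) hmono L).1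
    rw [h.hsum] at h1
    rw [Fin.sum_univ_eq_sum_range (fun i => a i) L]
    exact h1.symm
  · exact le_of_eq (R2Q_eq_fast g n L a _ hmono hpos hrat)
  · exact le_of_eq (cQ_eq_fast L a _ hmono)

end Vale.Agent.Lib.P371
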