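import Vale.Agent.Lib.P371.Ibp

/-!
Facts on the L2 Fourier transform on the real line, for complex functions.
-/

open MeasureTheory FourierTransform
open scoped SchwartzMap ENNReal RealInnerProductSpace Real

namespace Vale.Agent.Lib.P371

/-- The pointwise inverse Fourier integral of an integrable function is continuous. -/
theorem continuous_fourierInv_fun {h : ℝ → ℂ} (h1 : Integrable h) :
    Continuous (𝓕⁻ h : ℝ → ℂ) := by
  have : (𝓕⁻ h : ℝ → ℂ) = VectorFourier.fourierIntegral Real.fourierChar volume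
      (-innerₗ ℝ) h := rfl
  rw [this]
  refine VectorFourier.fourierIntegral_continuous Real.continuous_fourierChar ?_ h1
  simp only [LinearMap.neg_apply]
  exact (continuous_fst.inner continuous_snd).neg

/-- Duality for the pointwise inverse transform against a Schwartz function. -/
theorem integral_fourierInv_smul_swap {h : ℝ → ℂ} (h1 : Integrable h) (φ : 𝓢(ℝ, ℂ)) :
    ∫ ξ, (𝓕⁻ φ : 𝓢(ℝ, ℂ)) ξ * h ξ = ∫ x, φ x * (𝓕⁻ h : ℝ → ℂ) x := by
  have key := VectorFourier.integral_fourierIntegral_smul_eq_flip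
    (e := Real.fourierChar) (μ := (volume : Measure ℝ)) (ν := (volume : Measure ℝ))
    (L := (-innerₗ ℝ : ℝ →ₗ[ℝ] ℝ →ₗ[ℝ] ℝ)) (f := (φ : ℝ → ℂ)) (g := h)
    Real.continuous_fourierChar
    (by
      simp only [LinearMap.neg_apply]
      exact (continuous_fst.inner continuous_snd).neg)
    φ.integrable h1
  have e1 : ∀ ξ, (𝓕⁻ φ : 𝓢(ℝ, ℂ)) ξ =
      VectorFourier.fourierIntegral Real.fourierChar volume (-innerₗ ℝ) (φ : ℝ → ℂ) ξ := by
    intro ξ
    rw [SchwartzMap.fourierInv_coe]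
    rfl
  have e2 : ∀ x, (𝓕⁻ h : ℝ → ℂ) x =
      VectorFourier.fourierIntegral Real.fourierChar volume
        ((-innerₗ ℝ : ℝ →ₗ[ℝ] ℝ →ₗ[ℝ] ℝ).flip) h x := by
    intro x
    rw [Real.fourierInv_eq]
    simp only [VectorFourier.fourierIntegral, LinearMap.flip_apply, LinearMap.neg_apply,
      innerₗ_apply_apply, neg_neg]
    refine integral_congr_ae (Filter.Eventually.of_forall fun ξ => ?_)
    simp [mul_comm]
  simp only [e1, e2, smul_eq_mul] at key ⊢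
  exact key

/-- For `h` in `L¹ ∩ L²`, the `L²` inverse Fourier transform of `h` is a.e. the
pointwise inverse Fourier integral. -/
theorem fourierInv_toLp_ae_eq {h : ℝ → ℂ} (h1 : Integrable h) (h2 : MemLp h 2) :
    ((𝓕⁻ (h2.toLp h) : Lp ℂ 2 (volume : Measure ℝ)) : ℝ → ℂ) =ᵐ[volume] (𝓕⁻ h : ℝ → ℂ) := by
  apply ae_eq_of_integral_contDiff_smul_eq
  · exact (Lp.memLp _).locallyIntegrable (by norm_num)
  · exact (continuous_fourierInv_fun h1).locallyIntegrable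
  · intro g g_smooth g_cpt
    have hg₁ : HasCompactSupport (Complex.ofRealCLM ∘ g) := g_cpt.comp_left rfl
    have hg₂ : ContDiff ℝ (⊤ : ℕ∞) (Complex.ofRealCLM ∘ g) := by fun_prop
    set φ : 𝓢(ℝ, ℂ) := hg₁.toSchwartzMap hg₂ with hφ
    have hφg : ∀ x, φ x = (g x : ℂ) := by
      intro x
      simp [hφ]
    calc ∫ x, g x • ((𝓕⁻ (h2.toLp h) : Lp ℂ 2 (volume : Measure ℝ)) : ℝ → ℂ) x
        = ∫ x, φ x • ((𝓕⁻ (h2.toLp h) : Lp ℂ 2 (volume : Measure ℝ)) : ℝ → ℂ) x := by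
          refine integral_congr_ae (Filter.Eventually.of_forall fun x => ?_)
          simp [hφg]
      _ = Lp.toTemperedDistribution (𝓕⁻ (h2.toLp h) : Lp ℂ 2 (volume : Measure ℝ)) φ := by
          rw [Lp.toTemperedDistribution_apply]
      _ = (𝓕⁻ (Lp.toTemperedDistribution (h2.toLp h))) φ := by
          rw [Lp.fourierInv_toTemperedDistribution_eq]
      _ = Lp.toTemperedDistribution (h2.toLp h) (𝓕⁻ φ) := by
          rw [TemperedDistribution.fourierInv_apply]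
      _ = ∫ ξ, (𝓕⁻ φ : 𝓢(ℝ, ℂ)) ξ • (h2.toLp h : ℝ → ℂ) ξ := by
          rw [Lp.toTemperedDistribution_apply]
      _ = ∫ ξ, (𝓕⁻ φ : 𝓢(ℝ, ℂ)) ξ * h ξ := by
          refine integral_congr_ae ?_
          filter_upwards [h2.coeFn_toLp] with ξ hξ
          rw [hξ, smul_eq_mul]
      _ = ∫ x, φ x * (𝓕⁻ h : ℝ → ℂ) x := integral_fourierInv_smul_swap h1 φ
      _ = ∫ x, g x • (𝓕⁻ h : ℝ → ℂ) x := by
          refine integral_congr_ae (Filter.Eventually.of_forall fun x => ?_)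
          simp [hφg]


/-- The `L²` Fourier transform of an `H¹` function and of its derivative are related by
multiplication with `2 π i ξ`. -/
theorem fourier_deriv_ae {u u' : ℝ → ℂ} (hu : IsH1 u u') :
    ((𝓕 (hu.memLp_deriv.toLp u') : Lp ℂ 2 (volume : Measure ℝ)) : ℝ → ℂ) =ᵐ[volume]
      fun ξ => ((2 * π : ℝ) * Complex.I * ξ) *
        ((𝓕 (hu.memLp.toLp u) : Lp ℂ 2 (volume : Measure ℝ)) : ℝ → ℂ) ξ := by
  set U := hu.memLp.toLp u with hU
  set U' := hu.memLp_deriv.toLp u' with hU'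
  apply ae_eq_of_integral_contDiff_smul_eq
  · exact (Lp.memLp _).locallyIntegrable (by norm_num)
  · have h1 : LocallyIntegrable ((𝓕 U : Lp ℂ 2 (volume : Measure ℝ)) : ℝ → ℂ) :=
      (Lp.memLp _).locallyIntegrable (by norm_num)
    have hc : Continuous (fun ξ : ℝ => (((2 * π : ℝ) : ℂ) * Complex.I * ξ)) := by fun_prop
    exact h1.continuous_smul hc
  · intro g g_smooth g_cpt
    have hg₁ : HasCompactSupport (Complex.ofRealCLM ∘ g) := g_cpt.comp_left rfl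
    have hg₂ : ContDiff ℝ (⊤ : ℕ∞) (Complex.ofRealCLM ∘ g) := by fun_prop
    set φ : 𝓢(ℝ, ℂ) := hg₁.toSchwartzMap hg₂ with hφ
    have hφg : ∀ x, φ x = (g x : ℂ) := by
      intro x
      simp [hφ]
    have htg : Function.HasTemperateGrowth (fun x : ℝ => (inner ℝ x (1:ℝ) : ℝ)) := by fun_prop
    set χ : 𝓢(ℝ, ℂ) := (-(2 * (π:ℂ) * Complex.I)) •
      (SchwartzMap.smulLeftCLM ℂ (fun x : ℝ => (inner ℝ x (1:ℝ) : ℝ))) φ with hχ
    have hχ_apply : ∀ x : ℝ, χ x = -(2 * (π:ℂ) * Complex.I) * ((x:ℂ) * (g x : ℂ)) := by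
      intro x
      simp only [hχ, smul_apply, SchwartzMap.smulLeftCLM_apply_apply htg, hφg, smul_eq_mul]
      simp [mul_comm]
    have hderiv : ∀ x, HasDerivAt (𝓕 φ : 𝓢(ℝ, ℂ)) ((𝓕 χ : 𝓢(ℝ, ℂ)) x) x := by
      intro x
      have h1 := (𝓕 φ : 𝓢(ℝ, ℂ)).hasDerivAt x
      have h2 := SchwartzMap.lineDerivOp_fourier_eq φ (1:ℝ)
      have h3 : ((LineDeriv.lineDerivOp (1:ℝ) (𝓕 φ : 𝓢(ℝ, ℂ))) : 𝓢(ℝ, ℂ)) x = deriv (𝓕 φ : 𝓢(ℝ, ℂ)) x := by
        rw [SchwartzMap.lineDerivOp_apply_eq_fderiv]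
        simp
      rw [h2] at h3
      have h4 : (𝓕 χ : 𝓢(ℝ, ℂ)) x = deriv (𝓕 φ : 𝓢(ℝ, ℂ)) x := by
        rw [← h3]
      rw [h4]
      exact h1
    have hibp := ibp_line (a := (𝓕 φ : 𝓢(ℝ, ℂ))) (a' := (𝓕 χ : 𝓢(ℝ, ℂ))) hu hderiv
      (𝓕 χ : 𝓢(ℝ, ℂ)).continuous ((𝓕 φ : 𝓢(ℝ, ℂ)).memLp 2 volume) ((𝓕 χ : 𝓢(ℝ, ℂ)).memLp 2 volume)
    calc ∫ ξ, g ξ • ((𝓕 U' : Lp ℂ 2 (volume : Measure ℝ)) : ℝ → ℂ) ξ
        = ∫ ξ, φ ξ • ((𝓕 U' : Lp ℂ 2 (volume : Measure ℝ)) : ℝ → ℂ) ξ := by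
          refine integral_congr_ae (Filter.Eventually.of_forall fun x => ?_)
          simp [hφg]
      _ = Lp.toTemperedDistribution (𝓕 U' : Lp ℂ 2 (volume : Measure ℝ)) φ := by
          rw [Lp.toTemperedDistribution_apply]
      _ = (𝓕 (Lp.toTemperedDistribution U')) φ := by
          rw [Lp.fourier_toTemperedDistribution_eq]
      _ = Lp.toTemperedDistribution U' (𝓕 φ) := by
          rw [TemperedDistribution.fourier_apply]
      _ = ∫ x, (𝓕 φ : 𝓢(ℝ, ℂ)) x * u' x := by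
          rw [Lp.toTemperedDistribution_apply]
          refine integral_congr_ae ?_
          filter_upwards [hu.memLp_deriv.coeFn_toLp] with x hx
          rw [hU', hx, smul_eq_mul]
      _ = - ∫ x, (𝓕 χ : 𝓢(ℝ, ℂ)) x * u x := hibp
      _ = - Lp.toTemperedDistribution U (𝓕 χ) := by
          rw [Lp.toTemperedDistribution_apply]
          congr 1
          refine integral_congr_ae ?_
          filter_upwards [hu.memLp.coeFn_toLp] with x hx
          rw [hU, hx, smul_eq_mul]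
      _ = - (𝓕 (Lp.toTemperedDistribution U)) χ := by
          rw [TemperedDistribution.fourier_apply]
      _ = - Lp.toTemperedDistribution (𝓕 U : Lp ℂ 2 (volume : Measure ℝ)) χ := by
          rw [Lp.fourier_toTemperedDistribution_eq]
      _ = - ∫ ξ, χ ξ • ((𝓕 U : Lp ℂ 2 (volume : Measure ℝ)) : ℝ → ℂ) ξ := by
          rw [Lp.toTemperedDistribution_apply]
      _ = ∫ ξ, g ξ • (((2 * π : ℝ) * Complex.I * ξ) *
            ((𝓕 U : Lp ℂ 2 (volume : Measure ℝ)) : ℝ → ℂ) ξ) := by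
          rw [← integral_neg]
          refine integral_congr_ae (Filter.Eventually.of_forall fun x => ?_)
          simp only [hχ_apply, smul_eq_mul, Complex.real_smul]
          push_cast
          ring


/-- The square of the `L²` norm as an integral. -/
theorem lp2_norm_sq (f : Lp ℂ 2 (volume : Measure ℝ)) :
    ‖f‖ ^ 2 = ∫ x, ‖(f : ℝ → ℂ) x‖ ^ 2 := by
  have h := L2.inner_def (𝕜 := ℂ) f f
  rw [inner_self_eq_norm_sq_to_K] at h
  have h2 : ∀ a, inner ℂ ((f : ℝ → ℂ) a) ((f : ℝ → ℂ) a) = ((‖(f : ℝ → ℂ) a‖ ^ 2 : ℝ) : ℂ) := by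
    intro a
    rw [inner_self_eq_norm_sq_to_K]
    simp
  simp only [h2] at h
  rw [integral_complex_ofReal] at h
  apply Complex.ofReal_injective
  rw [← h]
  simp

/-- The `L²` Fourier transform as a function. -/
noncomputable def fhat {u : ℝ → ℂ} (hu : MemLp u 2 volume) : ℝ → ℂ :=
  ((𝓕 (hu.toLp u) : Lp ℂ 2 (volume : Measure ℝ)) : ℝ → ℂ)

theorem fhat_memLp {u : ℝ → ℂ} (hu : MemLp u 2 volume) : MemLp (fhat hu) 2 volume :=
  Lp.memLp _

theorem fhat_sm {u : ℝ → ℂ} (hu : MemLp u 2 volume) : StronglyMeasurable (fhat hu) :=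
  Lp.stronglyMeasurable _

/-- Parseval identity for the transform. -/
theorem fhat_inner {u v : ℝ → ℂ} (hu : MemLp u 2 volume) (hv : MemLp v 2 volume) :
    ∫ ξ, (starRingEnd ℂ) (fhat hu ξ) * fhat hv ξ = ∫ x, (starRingEnd ℂ) (u x) * v x := by
  have h := Lp.inner_fourier_eq (hu.toLp u) (hv.toLp v)
  rw [L2.inner_def, L2.inner_def] at h
  have e1 : ∀ a : ℝ, inner ℂ (((𝓕 (hu.toLp u) : Lp ℂ 2 (volume : Measure ℝ)) : ℝ → ℂ) a)
      (((𝓕 (hv.toLp v) : Lp ℂ 2 (volume : Measure ℝ)) : ℝ → ℂ) a)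
      = (starRingEnd ℂ) (fhat hu a) * fhat hv a := by
    intro a
    simp [fhat, RCLike.inner_apply, mul_comm]
  simp only [e1] at h
  rw [h]
  refine integral_congr_ae ?_
  filter_upwards [hu.coeFn_toLp, hv.coeFn_toLp] with x h1 h2
  rw [h1, h2]
  simp [RCLike.inner_apply, mul_comm]

/-- Plancherel for the transform. -/
theorem fhat_norm_sq {u : ℝ → ℂ} (hu : MemLp u 2 volume) :
    ∫ ξ, ‖fhat hu ξ‖ ^ 2 = ∫ x, ‖u x‖ ^ 2 := by
  have h1 := lp2_norm_sq (𝓕 (hu.toLp u) : Lp ℂ 2 (volume : Measure ℝ))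
  have h2 := lp2_norm_sq (hu.toLp u)
  rw [Lp.norm_fourier_eq] at h1
  rw [h2] at h1
  rw [fhat, ← h1]
  refine integral_congr_ae ?_
  filter_upwards [hu.coeFn_toLp] with x h
  rw [h]

section H1

variable {u u' : ℝ → ℂ}

theorem IsH1.continuous (hu : IsH1 u u') : Continuous u := by
  have hu'loc : LocallyIntegrable u' := hu.memLp_deriv.locallyIntegrable (by norm_num)
  have : u = fun x => u 0 + ∫ v in (0:ℝ)..x, u' v := by
    funext x; rw [hu.ftc]; ring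
  rw [this]
  exact continuous_const.add (intervalIntegral.continuous_primitive
    (fun a b => locInt_intervalIntegrable hu'loc a b) 0)

/-- Multiplication by the frequency stays in `L²`. -/
theorem fhat_mul_memLp (hu : IsH1 u u') :
    MemLp (fun ξ : ℝ => (ξ : ℂ) * fhat hu.memLp ξ) 2 volume := by
  have h := fourier_deriv_ae hu
  have h2 : MemLp (fun ξ : ℝ => ((2 * π : ℝ) : ℂ)⁻¹ * (-Complex.I) *
      ((𝓕 (hu.memLp_deriv.toLp u') : Lp ℂ 2 (volume : Measure ℝ)) : ℝ → ℂ) ξ) 2 volume :=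
    (Lp.memLp _).const_mul _
  refine h2.ae_eq ?_
  filter_upwards [h] with ξ hξ
  rw [hξ, fhat]
  have hpi : ((2 * π : ℝ) : ℂ) ≠ 0 := by
    exact_mod_cast (by positivity : (2 * π : ℝ) ≠ 0)
  field_simp
  ring_nf
  simp

/-- Kinetic energy on the Fourier side. -/
theorem kinetic_eq (hu : IsH1 u u') :
    ∫ x, ‖u' x‖ ^ 2 = (2 * π) ^ 2 * ∫ ξ, ξ ^ 2 * ‖fhat hu.memLp ξ‖ ^ 2 := by
  rw [← fhat_norm_sq hu.memLp_deriv, ← integral_const_mul]
  refine integral_congr_ae ?_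
  filter_upwards [fourier_deriv_ae hu] with ξ hξ
  rw [fhat, hξ, fhat]
  simp only [norm_mul, Complex.norm_real, Complex.norm_I, Real.norm_eq_abs, mul_one, mul_pow,
    sq_abs]
  ring

/-- The transform of an `H¹` function is integrable. -/
theorem fhat_integrable (hu : IsH1 u u') : Integrable (fhat hu.memLp) := by
  have i1 : Integrable (fun ξ => ‖fhat hu.memLp ξ‖ ^ 2) := (fhat_memLp hu.memLp).integrable_norm_pow
    (by norm_num)
  have i2 : Integrable (fun ξ : ℝ => ‖(ξ : ℂ) * fhat hu.memLp ξ‖ ^ 2) :=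
    (fhat_mul_memLp hu).integrable_norm_pow (by norm_num)
  have i3 : Integrable (fun ξ : ℝ => (1 + ξ ^ 2)⁻¹) := integrable_inv_one_add_sq
  refine Integrable.mono' ((i3.add (i1.add i2)).div_const 2)
    (fhat_sm hu.memLp).aestronglyMeasurable (Filter.Eventually.of_forall fun ξ => ?_)
  simp only [Pi.add_apply, norm_mul, Complex.norm_real, Real.norm_eq_abs, mul_pow, sq_abs]
  set a := ‖fhat hu.memLp ξ‖ with ha
  have hpos : 0 < 1 + ξ ^ 2 := by positivity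
  have h1 : (a * (1 + ξ ^ 2) - 1) ^ 2 ≥ 0 := sq_nonneg _
  have : a ≤ ((1 + ξ ^ 2)⁻¹ + (a ^ 2 + ξ ^ 2 * a ^ 2)) / 2 := by
    rw [le_div_iff₀ (by norm_num)]
    have h2 : a * 2 * (1 + ξ ^ 2) ≤ 1 + (a ^ 2 + ξ ^ 2 * a ^ 2) * (1 + ξ ^ 2) := by nlinarith
    have h3 : (1 + ξ ^ 2)⁻¹ * (1 + ξ ^ 2) = 1 := inv_mul_cancel₀ hpos.ne'
    have h4 : (a * 2) * (1 + ξ ^ 2) ≤ ((1 + ξ ^ 2)⁻¹ + (a ^ 2 + ξ ^ 2 * a ^ 2)) * (1 + ξ ^ 2) := by
      rw [add_mul, h3]; linarith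
    exact le_of_mul_le_mul_right h4 hpos
  simpa using this

/-- Fourier inversion for `H¹` functions, at every point. -/
theorem inversion (hu : IsH1 u u') (x : ℝ) : u x = 𝓕⁻ (fhat hu.memLp) x := by
  have h1 := fourierInv_toLp_ae_eq (fhat_integrable hu) (fhat_memLp hu.memLp)
  have h2 : (fhat_memLp hu.memLp).toLp (fhat hu.memLp) = 𝓕 (hu.memLp.toLp u) :=
    Lp.toLp_coeFn _ _
  rw [h2, FourierTransform.fourierInv_fourier_eq] at h1
  have h3 : u =ᵐ[volume] (𝓕⁻ (fhat hu.memLp) : ℝ → ℂ) := hu.memLp.coeFn_toLp.symm.trans h1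
  have hc : Continuous (𝓕⁻ (fhat hu.memLp) : ℝ → ℂ) := continuous_fourierInv_fun (fhat_integrable hu)
  exact congrFun ((hu.continuous.ae_eq_iff_eq volume hc).1 h3) x

end H1

/-- Plancherel for the pointwise inverse transform of a function in `L¹ ∩ L²`. -/
theorem fourierInv_norm_sq {h : ℝ → ℂ} (h1 : Integrable h) (h2 : MemLp h 2 volume) :
    ∫ x, ‖(𝓕⁻ h : ℝ → ℂ) x‖ ^ 2 = ∫ ξ, ‖h ξ‖ ^ 2 := by
  have e1 := lp2_norm_sq (𝓕⁻ (h2.toLp h) : Lp ℂ 2 (volume : Measure ℝ))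
  have e2 := lp2_norm_sq (h2.toLp h)
  have e3 : ‖(𝓕⁻ (h2.toLp h) : Lp ℂ 2 (volume : Measure ℝ))‖ = ‖h2.toLp h‖ :=
    (Lp.fourierTransformₗᵢ ℝ ℂ).symm.norm_map _
  rw [e3, e2] at e1
  have e4 : ∫ x, ‖(𝓕⁻ h : ℝ → ℂ) x‖ ^ 2 =
      ∫ x, ‖((𝓕⁻ (h2.toLp h) : Lp ℂ 2 (volume : Measure ℝ)) : ℝ → ℂ) x‖ ^ 2 := by
    refine integral_congr_ae ?_
    filter_upwards [fourierInv_toLp_ae_eq h1 h2] with x hx
    rw [hx]
  have e5 : ∫ ξ, ‖h ξ‖ ^ 2 = ∫ ξ, ‖(h2.toLp h : ℝ → ℂ) ξ‖ ^ 2 := by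
    refine integral_congr_ae ?_
    filter_upwards [h2.coeFn_toLp] with x hx
    rw [hx]
  rw [e4, e5, e1]

end Vale.Agent.Lib.P371
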