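import Vale.Agent.Lib.P371.Defs

/-!
Integration by parts for `H¹` functions on the real line.
-/

open MeasureTheory Set Filter Topology
open scoped Real

namespace Vale.Agent.Lib.P371

theorem locInt_intervalIntegrable {E : Type*} [NormedAddCommGroup E] {f : ℝ → E}
    (hf : LocallyIntegrable f) (a b : ℝ) : IntervalIntegrable f volume a b :=
  intervalIntegrable_iff.mpr ((hf.integrableOn_isCompact isCompact_uIcc).mono_set uIoc_subset_uIcc)

/-- Integration by parts on an interval for a real primitive of a locally integrable function
against a real function with continuous derivative. -/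
theorem ibp_real {a a' f f' : ℝ → ℝ} (ha : ∀ x, HasDerivAt a (a' x) x) (ha' : Continuous a')
    (hf' : LocallyIntegrable f') (hftc : ∀ x y, ∫ t in x..y, f' t = f y - f x) (s t : ℝ) :
    ∫ x in s..t, (a x * f' x + a' x * f x) = a t * f t - a s * f s := by
  have hint : IntervalIntegrable f' volume s t := locInt_intervalIntegrable hf' s t
  have hfeq : f = fun x => f s + ∫ v in s..x, f' v := by
    funext x; rw [hftc]; ring
  have hacf : AbsolutelyContinuousOnInterval f s t := by
    have h1 := hint.absolutelyContinuousOnInterval_intervalIntegral (c := s) (by simp)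
    have h2 : AbsolutelyContinuousOnInterval (fun _ : ℝ => f s) s t :=
      (contDiffOn_const (c := f s) (s := uIcc s t) (n := 1)).absolutelyContinuousOnInterval
    rw [hfeq]
    exact h2.add h1
  have hdiff : ContDiff ℝ 1 a := by
    rw [contDiff_one_iff_deriv]
    have : deriv a = a' := funext fun x => (ha x).deriv
    exact ⟨fun x => (ha x).differentiableAt, this ▸ ha'⟩
  have haca : AbsolutelyContinuousOnInterval a s t :=
    (hdiff.contDiffOn (s := uIcc s t)).absolutelyContinuousOnInterval
  have key := AbsolutelyContinuousOnInterval.integral_deriv_mul_eq_sub haca hacf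
  rw [← key]
  apply intervalIntegral.integral_congr_ae
  have hae := LocallyIntegrable.ae_hasDerivAt_integral hf'
  filter_upwards [hae] with x hx _
  have hd : HasDerivAt f (f' x) x := by
    have h3 := (hasDerivAt_const x (f s)).add (hx s)
    rw [zero_add] at h3
    have h4 : ((fun _ : ℝ => f s) + fun x => ∫ t in s..x, f' t) = f := by
      funext y; simp [hftc]
    rwa [h4] at h3
  rw [hd.deriv, (ha x).deriv]
  ring

/-- Complex version of the integration by parts on an interval. -/
theorem ibp_complex {a a' u u' : ℝ → ℂ} (ha : ∀ x, HasDerivAt a (a' x) x) (ha' : Continuous a')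
    (hu' : LocallyIntegrable u') (hftc : ∀ x y, ∫ t in x..y, u' t = u y - u x) (s t : ℝ) :
    ∫ x in s..t, (a x * u' x + a' x * u x) = a t * u t - a s * u s := by
  have hur : ∀ x y, ∫ t in x..y, (u' t).re = (u y).re - (u x).re := by
    intro x y
    have := Complex.reCLM.intervalIntegral_comp_comm (locInt_intervalIntegrable hu' x y)
    simp only [Complex.reCLM_apply] at this
    rw [this, hftc, Complex.sub_re]
  have hui : ∀ x y, ∫ t in x..y, (u' t).im = (u y).im - (u x).im := by
    intro x y
    have := Complex.imCLM.intervalIntegral_comp_comm (locInt_intervalIntegrable hu' x y)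
    simp only [Complex.imCLM_apply] at this
    rw [this, hftc, Complex.sub_im]
  have hur' : LocallyIntegrable fun x => (u' x).re := locallyIntegrableOn_univ.1
    (Complex.reCLM.locallyIntegrableOn_comp (hu'.locallyIntegrableOn univ))
  have hui' : LocallyIntegrable fun x => (u' x).im := locallyIntegrableOn_univ.1
    (Complex.imCLM.locallyIntegrableOn_comp (hu'.locallyIntegrableOn univ))
  have har : ∀ x, HasDerivAt (fun x => (a x).re) (a' x).re x := fun x =>
    Complex.reCLM.hasFDerivAt.comp_hasDerivAt x (ha x)
  have hai : ∀ x, HasDerivAt (fun x => (a x).im) (a' x).im x := fun x =>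
    Complex.imCLM.hasFDerivAt.comp_hasDerivAt x (ha x)
  have har' : Continuous fun x => (a' x).re := Complex.continuous_re.comp ha'
  have hai' : Continuous fun x => (a' x).im := Complex.continuous_im.comp ha'
  have i1 := ibp_real har har' hur' hur s t
  have i2 := ibp_real har har' hui' hui s t
  have i3 := ibp_real hai hai' hur' hur s t
  have i4 := ibp_real hai hai' hui' hui s t
  have hcont_a : Continuous a := continuous_iff_continuousAt.2 fun x => (ha x).continuousAt
  have hcont_u : Continuous u := by
    have : u = fun x => u 0 + ∫ v in (0:ℝ)..x, u' v := by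
      funext x; rw [hftc]; ring
    rw [this]
    exact continuous_const.add (intervalIntegral.continuous_primitive
      (fun a b => locInt_intervalIntegrable hu' a b) 0)
  have hii : IntervalIntegrable (fun x => a x * u' x + a' x * u x) volume s t :=
    ((locInt_intervalIntegrable hu' s t).continuousOn_mul hcont_a.continuousOn).add
      ((ha'.mul hcont_u).intervalIntegrable s t)
  have hrr : ∀ p q : ℝ → ℝ, Continuous p → Continuous q → IntervalIntegrable (fun x => p x * q x) volume s t := 
    fun p q hp hq => (hp.mul hq).intervalIntegrable s t
  apply Complex.ext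
  · have := Complex.reCLM.intervalIntegral_comp_comm hii
    simp only [Complex.reCLM_apply] at this
    rw [← this]
    simp only [Complex.add_re, Complex.mul_re, Complex.sub_re]
    have e : ∀ x, (a x).re * (u' x).re - (a x).im * (u' x).im + ((a' x).re * (u x).re - (a' x).im * (u x).im)
        = ((a x).re * (u' x).re + (a' x).re * (u x).re) - ((a x).im * (u' x).im + (a' x).im * (u x).im) := by
      intro x; ring
    simp only [e]
    rw [intervalIntegral.integral_sub, i1, i4]
    · ring
    · exact ((locInt_intervalIntegrable hur' s t).continuousOn_mul (Complex.continuous_re.comp hcont_a).continuousOn).add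
        ((har'.mul (Complex.continuous_re.comp hcont_u)).intervalIntegrable s t)
    · exact ((locInt_intervalIntegrable hui' s t).continuousOn_mul (Complex.continuous_im.comp hcont_a).continuousOn).add
        ((hai'.mul (Complex.continuous_im.comp hcont_u)).intervalIntegrable s t)
  · have := Complex.imCLM.intervalIntegral_comp_comm hii
    simp only [Complex.imCLM_apply] at this
    rw [← this]
    simp only [Complex.add_im, Complex.mul_im, Complex.sub_im]
    have e : ∀ x, (a x).re * (u' x).im + (a x).im * (u' x).re + ((a' x).re * (u x).im + (a' x).im * (u x).re)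
        = ((a x).re * (u' x).im + (a' x).re * (u x).im) + ((a x).im * (u' x).re + (a' x).im * (u x).re) := by
      intro x; ring
    simp only [e]
    rw [intervalIntegral.integral_add, i2, i3]
    · ring
    · exact ((locInt_intervalIntegrable hui' s t).continuousOn_mul (Complex.continuous_re.comp hcont_a).continuousOn).add
        ((har'.mul (Complex.continuous_im.comp hcont_u)).intervalIntegrable s t)
    · exact ((locInt_intervalIntegrable hur' s t).continuousOn_mul (Complex.continuous_im.comp hcont_a).continuousOn).add
        ((hai'.mul (Complex.continuous_re.comp hcont_u)).intervalIntegrable s t)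


/-- An integrable function with a limit at `+∞` has limit zero. -/
theorem limit_eq_zero_atTop {F : ℝ → ℂ} {l : ℂ} (hF : Integrable F) (hl : Tendsto F atTop (𝓝 l)) :
    l = 0 := by
  have h1 : IntegrableAtFilter F atTop (volume : Measure ℝ) :=
    ⟨univ, univ_mem, by simpa using hF⟩
  refine h1.eq_zero_of_tendsto ?_ hl
  intro s hs
  rcases mem_atTop_sets.1 hs with ⟨b, hb⟩
  rw [← top_le_iff, ← Real.volume_Ici (a := b)]
  exact measure_mono hb

/-- An integrable function with a limit at `-∞` has limit zero. -/
theorem limit_eq_zero_atBot {F : ℝ → ℂ} {l : ℂ} (hF : Integrable F) (hl : Tendsto F atBot (𝓝 l)) :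
    l = 0 := by
  have h1 : IntegrableAtFilter F atBot (volume : Measure ℝ) :=
    ⟨univ, univ_mem, by simpa using hF⟩
  refine h1.eq_zero_of_tendsto ?_ hl
  intro s hs
  rcases mem_atBot_sets.1 hs with ⟨b, hb⟩
  rw [← top_le_iff, ← Real.volume_Iic (a := b)]
  exact measure_mono hb

/-- Integration by parts on the whole line for an `H¹` function and a square integrable
function with square integrable continuous derivative. -/
theorem ibp_line {a a' u u' : ℝ → ℂ} (hu : IsH1 u u') (ha : ∀ x, HasDerivAt a (a' x) x)
    (ha' : Continuous a') (haL : MemLp a 2 volume) (haL' : MemLp a' 2 volume) :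
    ∫ x, a x * u' x = - ∫ x, a' x * u x := by
  have hu'loc : LocallyIntegrable u' := hu.memLp_deriv.locallyIntegrable (by norm_num)
  have i1 : Integrable (fun x => a x * u' x) := haL.integrable_mul hu.memLp_deriv
  have i2 : Integrable (fun x => a' x * u x) := haL'.integrable_mul hu.memLp
  have i3 : Integrable (fun x => a x * u x) := haL.integrable_mul hu.memLp
  have ih : Integrable (fun x => a x * u' x + a' x * u x) := i1.add i2
  have key : ∀ s t, ∫ x in s..t, (a x * u' x + a' x * u x) = a t * u t - a s * u s :=
    ibp_complex ha ha' hu'loc hu.ftc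
  -- limit at plus infinity
  have ltop : Tendsto (fun t => a t * u t) atTop (𝓝 (a 0 * u 0 + ∫ x in Ioi (0:ℝ), (a x * u' x + a' x * u x))) := by
    have h := intervalIntegral_tendsto_integral_Ioi (0:ℝ) ih.integrableOn tendsto_id
    have h2 := h.const_add (a 0 * u 0)
    refine h2.congr fun t => ?_
    simp only [id]
    rw [key]; ring
  have lbot : Tendsto (fun t => a t * u t) atBot (𝓝 (a 0 * u 0 - ∫ x in Iic (0:ℝ), (a x * u' x + a' x * u x))) := by
    have h := intervalIntegral_tendsto_integral_Iic (0:ℝ) ih.integrableOn tendsto_id
    have h2 := h.const_sub (a 0 * u 0)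
    refine h2.congr fun t => ?_
    simp only [id]
    rw [key]; ring
  have z1 := limit_eq_zero_atTop i3 ltop
  have z2 := limit_eq_zero_atBot i3 lbot
  have total : ∫ x, (a x * u' x + a' x * u x) = 0 := by
    have hsplit := intervalIntegral.integral_Iic_add_Ioi (f := fun x => a x * u' x + a' x * u x)
      (b := (0:ℝ)) ih.integrableOn ih.integrableOn
    rw [← hsplit]
    have e1 := eq_sub_of_add_eq' z1
    have e2 : ∫ x in Iic (0:ℝ), (a x * u' x + a' x * u x) = a 0 * u 0 := by
      linear_combination -z2
    rw [e2]
    linear_combination z1
  rw [integral_add i1 i2] at total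
  linear_combination total

end Vale.Agent.Lib.P371
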