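import Vale.Agent.Lib.P371.Assemble

/-!
The eigenvalue-sum inequality for matrix potentials, for general step data.
-/

open MeasureTheory Matrix Set Filter FourierTransform
open scoped ComplexConjugate ENNReal Real ComplexOrder

namespace Vale.Agent.Lib.P371

variable {m N : ℕ} {ι : Type*} [Fintype ι]

/-- Measurability of the quadratic form along a family. -/
theorem measurable_quad {W : ℝ → Matrix (Fin m) (Fin m) ℂ}
    (hWm : ∀ a b, Measurable fun x => W x a b) {v : ℝ → Fin m → ℂ}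
    (hv : ∀ a, Measurable fun x => v x a) :
    Measurable fun x => (star (v x) ⬝ᵥ (W x *ᵥ v x)).re := by
  refine Complex.measurable_re.comp ?_
  simp only [dotProduct, Matrix.mulVec, Pi.star_apply]
  refine Finset.measurable_sum _ fun a _ => Measurable.mul ?_ ?_
  · exact continuous_star.measurable.comp (hv a)
  · exact Finset.measurable_sum _ fun b _ => (hWm a b).mul (hv b)

/-- The main inequality for general data. -/
theorem main_bound {Gp h : ℝ → ℝ} (hP : Profile Gp h) (a t : ι → ℝ)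
    (hsum : ∑ i, a i = 1) (ht : ∀ i, 0 < t i) (hR : 0 < R2 a t Gp) (hH : 0 < H2 h)
    (hc : 0 < cStep a t) {C : ℝ} (hC : 0 < C)
    (hKC : 4 ≤ 27 * (((16 / 729) / ((R2 a t Gp) ^ 2 * H2 h)) * ((2 * π) ^ 2 / cStep a t)) * C ^ 2)
    (W : ℝ → Matrix (Fin m) (Fin m) ℂ) (hW : ∀ x, (W x).PosSemidef)
    (hWm : ∀ a b, Measurable fun x => W x a b)
    (hWp : Integrable fun x => ∑ k, ((hW x).isHermitian.eigenvalues k) ^ (3 / 2 : ℝ))
    {ψ ψ' : Fin N → ℝ → Fin m → ℂ}
    (hψ : ∀ j a, IsH1 (fun x => ψ j x a) (fun x => ψ' j x a))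
    (horth : ∀ j l, ∑ a, ∫ x, conj (ψ j x a) * ψ l x a = if j = l then 1 else 0) :
    (∀ j, Integrable fun x => (star (ψ j x) ⬝ᵥ (W x *ᵥ ψ j x)).re) ∧
    (∑ j, ∫ x, (star (ψ j x) ⬝ᵥ (W x *ᵥ ψ j x)).re) - ∑ j, ∑ b, ∫ x, ‖ψ' j x b‖ ^ 2 ≤
      C * ∫ x, ∑ k, ((hW x).isHermitian.eigenvalues k) ^ (3 / 2 : ℝ) := by
  set κ := (16 / 729) / ((R2 a t Gp) ^ 2 * H2 h) with hκ
  have hκpos : 0 < κ := by positivity
  set β := (2 * π) ^ 2 / cStep a t with hβ
  have hβpos : 0 < β := by positivity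
  set K := κ * β with hK
  have hKpos : 0 < K := by positivity
  set S : ℝ → ℝ := fun x => ∑ k, ((hW x).isHermitian.eigenvalues k) ^ (3 / 2 : ℝ) with hS
  have hSnn : ∀ x, 0 ≤ S x := fun x => Finset.sum_nonneg fun k _ =>
    Real.rpow_nonneg ((hW x).eigenvalues_nonneg k) _
  set D : Fin N → ℝ → ℝ := fun j x => (star (ψ j x) ⬝ᵥ (W x *ᵥ ψ j x)).re with hD
  set Kin := ∑ j, ∑ b, ∫ x, ‖ψ' j x b‖ ^ 2 with hKin
  have hKinnn : 0 ≤ Kin := Finset.sum_nonneg fun j _ => Finset.sum_nonneg fun b _ =>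
    integral_nonneg fun x => by positivity
  have hDform : ∀ j x, D j x = ∑ k, (hW x).isHermitian.eigenvalues k *
      ‖ecoef (hW x).isHermitian k (ψ j x)‖ ^ 2 := by
    intro j x
    simp only [hD]
    rw [quad_eq (hW x).isHermitian (ψ j x)]
    exact Complex.ofReal_re _
  have hDnn : ∀ j x, 0 ≤ D j x := by
    intro j x
    rw [hDform]
    exact Finset.sum_nonneg fun k _ => mul_nonneg ((hW x).eigenvalues_nonneg k) (by positivity)
  have hψm : ∀ j b, Measurable fun x => ψ j x b := fun j b => (hψ j b).continuous.measurable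
  have hDm : ∀ j, Measurable (D j) := fun j => measurable_quad hWm (hψm j)
  -- the pointwise inequality
  have hpt : ∀ x, ENNReal.ofReal (∑ j, D j x) ≤
      ENNReal.ofReal β * tauDens hψ a t x + ENNReal.ofReal (C * S x) := by
    intro x
    set hA := (hW x).isHermitian with hhA
    set ρ : Fin m → ℝ := fun k => ∑ j, ‖ecoef hA k (ψ j x)‖ ^ 2 with hρ
    have hρnn : ∀ k, 0 ≤ ρ k := fun k => Finset.sum_nonneg fun j _ => by positivity
    have h1 : ∑ j, D j x = ∑ k, hA.eigenvalues k * ρ k := by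
      simp only [hDform]
      rw [Finset.sum_comm]
      refine Finset.sum_congr rfl fun k _ => ?_
      rw [hρ, Finset.mul_sum]
    have h2 : ∑ k, hA.eigenvalues k * ρ k ≤ ∑ k, (β * (κ * (ρ k) ^ 3) +
        C * (hA.eigenvalues k) ^ (3 / 2 : ℝ)) := by
      refine Finset.sum_le_sum fun k _ => ?_
      have := young_rpow ((hW x).eigenvalues_nonneg k) (hρnn k) hKpos hC hKC
      calc _ ≤ K * (ρ k) ^ 3 + C * (hA.eigenvalues k) ^ (3 / 2 : ℝ) := this
        _ = _ := by rw [hK]; ring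
    have h3 : ENNReal.ofReal (∑ k, (β * (κ * (ρ k) ^ 3) + C * (hA.eigenvalues k) ^ (3 / 2 : ℝ))) =
        ENNReal.ofReal β * ∑ k, ENNReal.ofReal (κ * (ρ k) ^ 3) + ENNReal.ofReal (C * S x) := by
      rw [Finset.sum_add_distrib, ENNReal.ofReal_add
        (Finset.sum_nonneg fun k _ => mul_nonneg hβpos.le (mul_nonneg hκpos.le (pow_nonneg (hρnn k) 3)))
        (Finset.sum_nonneg fun k _ => mul_nonneg hC.le (Real.rpow_nonneg ((hW x).eigenvalues_nonneg k) _))]
      congr 1
      · rw [← Finset.mul_sum, ENNReal.ofReal_mul hβpos.le,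
          ENNReal.ofReal_sum_of_nonneg fun k _ => mul_nonneg hκpos.le (pow_nonneg (hρnn k) 3)]
      · rw [← Finset.mul_sum]
    have h4 := density_bound hP a t hsum ht hR hH hψ horth hA x
    calc ENNReal.ofReal (∑ j, D j x) ≤ ENNReal.ofReal (∑ k, (β * (κ * (ρ k) ^ 3) +
            C * (hA.eigenvalues k) ^ (3 / 2 : ℝ))) :=
          ENNReal.ofReal_le_ofReal (h1 ▸ h2)
      _ = _ := h3
      _ ≤ _ := by gcongr
  -- integration
  have hint : ∫⁻ x, ENNReal.ofReal (∑ j, D j x) ≤ ENNReal.ofReal (Kin + C * ∫ x, S x) := by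
    have hSC : Integrable fun x => C * S x := hWp.const_mul C
    have hSCnn : 0 ≤ ∫ x, S x := integral_nonneg hSnn
    calc ∫⁻ x, ENNReal.ofReal (∑ j, D j x)
        ≤ ∫⁻ x, (ENNReal.ofReal β * tauDens hψ a t x + ENNReal.ofReal (C * S x)) :=
          lintegral_mono hpt
      _ = (∫⁻ x, ENNReal.ofReal β * tauDens hψ a t x) + ∫⁻ x, ENNReal.ofReal (C * S x) :=
          lintegral_add_right' _ hSC.aestronglyMeasurable.aemeasurable.ennreal_ofReal
      _ = ENNReal.ofReal β * (∫⁻ x, tauDens hψ a t x) + ENNReal.ofReal (C * ∫ x, S x) := by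
          rw [lintegral_const_mul' _ _ ENNReal.ofReal_ne_top, ← integral_const_mul,
            ofReal_integral_eq_lintegral_ofReal hSC
              (Eventually.of_forall fun x => mul_nonneg hC.le (hSnn x))]
      _ = ENNReal.ofReal (Kin + C * ∫ x, S x) := by
          rw [tau_total a t ht hψ, ← ENNReal.ofReal_mul hβpos.le,
            ENNReal.ofReal_add _ (mul_nonneg hC.le hSCnn)]
          · congr 2
            rw [hβ]
            have hpi : (2 * π) ^ 2 ≠ 0 := by positivity
            field_simp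
            rfl
          · exact hKinnn
  have hDsum : Measurable fun x => ∑ j, D j x := Finset.measurable_sum _ fun j _ => hDm j
  have hDsumnn : 0 ≤ᵐ[volume] fun x => ∑ j, D j x :=
    Eventually.of_forall fun x => Finset.sum_nonneg fun j _ => hDnn j x
  have hDi : Integrable fun x => ∑ j, D j x := by
    refine ⟨hDsum.aestronglyMeasurable, ?_⟩
    rw [hasFiniteIntegral_iff_ofReal hDsumnn]
    exact lt_of_le_of_lt hint ENNReal.ofReal_lt_top
  have hDj : ∀ j, Integrable (D j) := by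
    intro j
    refine hDi.mono' (hDm j).aestronglyMeasurable (Eventually.of_forall fun x => ?_)
    rw [Real.norm_eq_abs, abs_of_nonneg (hDnn j x)]
    exact Finset.single_le_sum (f := fun j => D j x) (fun j _ => hDnn j x) (Finset.mem_univ j)
  refine ⟨hDj, ?_⟩
  have hfin : ∫ x, ∑ j, D j x ≤ Kin + C * ∫ x, S x := by
    have h5 := ofReal_integral_eq_lintegral_ofReal hDi hDsumnn
    rw [← h5] at hint
    have h6 : 0 ≤ Kin + C * ∫ x, S x :=
      add_nonneg hKinnn (mul_nonneg hC.le (integral_nonneg hSnn))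
    exact (ENNReal.ofReal_le_ofReal_iff h6).1 hint
  rw [integral_finsetSum _ fun j _ => hDj j] at hfin
  linarith

end Vale.Agent.Lib.P371
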