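import Vale.Agent.Lib.P371.FourierL2

/-!
Step multipliers on the Fourier side.
-/

open MeasureTheory FourierTransform Set Filter Topology
open scoped ENNReal RealInnerProductSpace Real

namespace Vale.Agent.Lib.P371

variable {ι : Type*} [Fintype ι]

/-- The step multiplier at scale `s`. -/
noncomputable def stepM (a t : ι → ℝ) (s ξ : ℝ) : ℝ :=
  ∑ i, a i * (if t i * s < |ξ| then 1 else 0)

theorem measurable_stepM (a t : ι → ℝ) :
    Measurable (fun p : ℝ × ℝ => stepM a t p.1 p.2) := by
  unfold stepM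
  refine Finset.measurable_sum _ fun i _ => ?_
  refine Measurable.const_mul ?_ _
  refine Measurable.ite ?_ measurable_const measurable_const
  exact measurableSet_lt (by fun_prop) (by fun_prop)

theorem abs_stepM_le (a t : ι → ℝ) (s ξ : ℝ) : |stepM a t s ξ| ≤ ∑ i, |a i| := by
  unfold stepM
  refine (Finset.abs_sum_le_sum_abs _ _).trans (Finset.sum_le_sum fun i _ => ?_)
  rw [abs_mul]
  split_ifs <;> simp

/-- The character `ξ ↦ e^{2 π i ξ x}` as a complex number. -/
noncomputable def chi (x ξ : ℝ) : ℂ := ((Real.fourierChar (inner ℝ ξ x)) : ℂ)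

theorem norm_chi (x ξ : ℝ) : ‖chi x ξ‖ = 1 := Circle.norm_coe _

theorem continuous_chi : Continuous fun p : ℝ × ℝ => chi p.1 p.2 := by
  unfold chi
  have h : Continuous fun p : ℝ × ℝ => inner ℝ p.2 p.1 := continuous_snd.inner continuous_fst
  exact continuous_subtype_val.comp (Real.continuous_fourierChar.comp h)

theorem fourierInv_eq_chi (f : ℝ → ℂ) (x : ℝ) : (𝓕⁻ f : ℝ → ℂ) x = ∫ ξ, chi x ξ * f ξ := by
  rw [Real.fourierInv_eq]
  refine integral_congr_ae (Filter.Eventually.of_forall fun ξ => ?_)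
  simp [chi, Circle.smul_def]

/-- The filtered function at scale `s`, evaluated at `x`. -/
noncomputable def filt (a t : ι → ℝ) (g : ℝ → ℂ) (s x : ℝ) : ℂ :=
  ∫ ξ, chi x ξ * ((stepM a t s ξ : ℂ) * g ξ)

theorem filt_eq (a t : ι → ℝ) (g : ℝ → ℂ) (s x : ℝ) :
    filt a t g s x = (𝓕⁻ (fun ξ => (stepM a t s ξ : ℂ) * g ξ) : ℝ → ℂ) x :=
  (fourierInv_eq_chi _ x).symm

theorem measurable_filt (a t : ι → ℝ) {g : ℝ → ℂ} (hg : StronglyMeasurable g) :
    StronglyMeasurable (fun p : ℝ × ℝ => filt a t g p.1 p.2) := by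
  unfold filt
  have h1 : StronglyMeasurable (fun q : (ℝ × ℝ) × ℝ => chi q.1.2 q.2 *
      ((stepM a t q.1.1 q.2 : ℂ) * g q.2)) := by
    refine StronglyMeasurable.mul ?_ (StronglyMeasurable.mul ?_ ?_)
    · have hc : Continuous fun q : (ℝ × ℝ) × ℝ => (q.1.2, q.2) := by fun_prop
      exact (continuous_chi.comp hc).stronglyMeasurable
    · have hm : Measurable fun q : (ℝ × ℝ) × ℝ => (q.1.1, q.2) := by fun_prop
      have : Measurable (fun q : (ℝ × ℝ) × ℝ => stepM a t q.1.1 q.2) :=
        (measurable_stepM a t).comp hm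
      exact (Complex.measurable_ofReal.comp this).stronglyMeasurable
    · exact hg.comp_measurable measurable_snd
  exact h1.integral_prod_right'

theorem measurable_filt_swap (a t : ι → ℝ) {g : ℝ → ℂ} (hg : StronglyMeasurable g) :
    Measurable (fun p : ℝ × ℝ => filt a t g p.2 p.1) := by
  have h := measurable_filt a t hg
  have hsw : Measurable fun p : ℝ × ℝ => (p.2, p.1) := measurable_snd.prodMk measurable_fst
  exact (h.comp_measurable hsw).measurable

theorem measurable_filt_scale (a t : ι → ℝ) {g : ℝ → ℂ} (hg : StronglyMeasurable g) (x : ℝ) :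
    Measurable (fun s : ℝ => filt a t g s x) := by
  have h := measurable_filt a t hg
  have hsw : Measurable fun s : ℝ => (s, x) := by fun_prop
  exact (h.comp_measurable hsw).measurable

section Hyp

variable (a t : ι → ℝ)

theorem integrable_mult {g : ℝ → ℂ} (hg : Integrable g) (s : ℝ) :
    Integrable (fun ξ => (stepM a t s ξ : ℂ) * g ξ) := by
  refine hg.bdd_mul (c := ∑ i, |a i|) ?_ ?_
  · have : Measurable (fun ξ : ℝ => stepM a t s ξ) :=
      (measurable_stepM a t).comp (by fun_prop : Measurable fun ξ : ℝ => (s, ξ))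
    exact (Complex.measurable_ofReal.comp this).aestronglyMeasurable
  · exact Filter.Eventually.of_forall fun ξ => by
      rw [Complex.norm_real, Real.norm_eq_abs]
      exact abs_stepM_le a t s ξ

theorem memLp_mult {g : ℝ → ℂ} (hg : MemLp g 2 volume) (s : ℝ) :
    MemLp (fun ξ => (stepM a t s ξ : ℂ) * g ξ) 2 volume := by
  have hm : Measurable (fun ξ : ℝ => stepM a t s ξ) :=
    (measurable_stepM a t).comp (by fun_prop : Measurable fun ξ : ℝ => (s, ξ))
  refine MemLp.of_le_mul (c := ∑ i, |a i|) hg ?_ ?_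
  · exact ((Complex.measurable_ofReal.comp hm).aestronglyMeasurable).mul hg.1
  · refine Filter.Eventually.of_forall fun ξ => ?_
    rw [norm_mul, Complex.norm_real, Real.norm_eq_abs]
    exact mul_le_mul_of_nonneg_right (abs_stepM_le a t s ξ) (norm_nonneg _)

/-- Plancherel at fixed scale. -/
theorem filt_norm_sq {g : ℝ → ℂ} (h1 : Integrable g) (h2 : MemLp g 2 volume) (s : ℝ) :
    ∫ x, ‖filt a t g s x‖ ^ 2 = ∫ ξ, (stepM a t s ξ) ^ 2 * ‖g ξ‖ ^ 2 := by
  have := fourierInv_norm_sq (integrable_mult a t h1 s) (memLp_mult a t h2 s)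
  simp only [← filt_eq] at this
  rw [this]
  refine integral_congr_ae (Filter.Eventually.of_forall fun ξ => ?_)
  simp [mul_pow]

/-- The filtered function is square integrable. -/
theorem filt_memLp {g : ℝ → ℂ} (h1 : Integrable g) (h2 : MemLp g 2 volume) (s : ℝ) :
    MemLp (filt a t g s) 2 volume := by
  have h3 := fourierInv_toLp_ae_eq (integrable_mult a t h1 s) (memLp_mult a t h2 s)
  have h4 : MemLp ((𝓕⁻ ((memLp_mult a t h2 s).toLp _) : Lp ℂ 2 (volume : Measure ℝ)) : ℝ → ℂ) 2 volume :=
    Lp.memLp _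
  refine h4.ae_eq ?_
  filter_upwards [h3] with x hx
  rw [hx, filt_eq]

end Hyp

/-- The shape data: `Gp` is a polynomial-like function with `Gp' y = - y * h y`, `Gp 0 = 1`,
`Gp 1 = 0`. -/
structure Profile (Gp h : ℝ → ℝ) : Prop where
  hasDeriv : ∀ y, HasDerivAt Gp (-(y * h y)) y
  cont_h : Continuous h
  G0 : Gp 0 = 1
  G1 : Gp 1 = 0

/-- Truncation of the profile. -/
noncomputable def Gplus (Gp : ℝ → ℝ) (y : ℝ) : ℝ := if y < 1 then Gp y else 0

/-- The weight on scales. -/
noncomputable def etaL (h : ℝ → ℝ) (lam s : ℝ) : ℝ := (s / lam ^ 2) * h (s / lam)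

theorem continuous_etaL {h : ℝ → ℝ} (hh : Continuous h) (lam : ℝ) : Continuous (etaL h lam) := by
  unfold etaL
  exact (continuous_id.div_const _).mul (hh.comp (continuous_id.div_const _))

theorem integral_etaL {Gp h : ℝ → ℝ} (hP : Profile Gp h) {lam : ℝ} (hlam : 0 < lam) (b : ℝ) :
    ∫ s in (0:ℝ)..b, etaL h lam s = 1 - Gp (b / lam) := by
  have hd : ∀ s ∈ uIcc (0:ℝ) b, HasDerivAt (fun s => - Gp (s / lam)) (etaL h lam s) s := by
    intro s _
    have h0 : HasDerivAt (fun s => s / lam) (1 / lam) s := (hasDerivAt_id s).div_const lam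
    have h1 : HasDerivAt (fun s => Gp (s / lam)) (-(s / lam * h (s / lam)) * (1 / lam)) s :=
      (hP.hasDeriv (s / lam)).comp s h0
    refine h1.neg.congr_deriv ?_
    simp only [etaL]
    field_simp
  rw [intervalIntegral.integral_eq_sub_of_hasDerivAt hd
    ((continuous_etaL hP.cont_h lam).intervalIntegrable _ _)]
  simp [hP.G0]
  ring

/-- The inner integral of a single level. -/
theorem inner_level {Gp h : ℝ → ℝ} (hP : Profile Gp h) {lam τ : ℝ} (hlam : 0 < lam) (hτ : 0 < τ)
    (y : ℝ) :
    ∫ s in Ioo 0 lam, etaL h lam s * (if τ * s < |y| then 1 else 0) =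
      1 - Gplus Gp (|y| / (τ * lam)) := by
  set z := |y| / τ with hz
  have hz0 : 0 ≤ z := by positivity
  have hcond : ∀ s, (τ * s < |y|) ↔ s < z := by
    intro s
    rw [hz, lt_div_iff₀ hτ, mul_comm]
  have hdiv : |y| / (τ * lam) = z / lam := by
    rw [hz]; field_simp
  rw [hdiv]
  simp only [hcond]
  by_cases hzl : z < lam
  · have h1 : z / lam < 1 := (div_lt_one hlam).2 hzl
    simp only [Gplus, h1, if_true]
    rw [← integral_etaL hP hlam z, intervalIntegral.integral_of_le hz0,
      integral_Ioc_eq_integral_Ioo]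
    have h2 : (fun s => etaL h lam s * (if s < z then (1:ℝ) else 0)) =
        (Iio z).indicator (etaL h lam) := by
      funext s
      by_cases hs : s < z <;> simp [Set.indicator, hs]
    rw [h2, setIntegral_indicator measurableSet_Iio]
    congr 2
    ext s
    simp only [mem_inter_iff, mem_Ioo, mem_Iio]
    constructor
    · rintro ⟨⟨h3, _⟩, h5⟩; exact ⟨h3, h5⟩
    · rintro ⟨h3, h5⟩; exact ⟨⟨h3, h5.trans hzl⟩, h5⟩
  · have h1 : ¬ z / lam < 1 := by
      rw [div_lt_one hlam]; exact hzl
    simp only [Gplus, h1, if_false, sub_zero]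
    have h2 : ∫ s in Ioo 0 lam, etaL h lam s * (if s < z then (1:ℝ) else 0) =
        ∫ s in Ioo 0 lam, etaL h lam s := by
      refine setIntegral_congr_fun measurableSet_Ioo fun s hs => ?_
      have : s < z := lt_of_lt_of_le hs.2 (not_lt.1 hzl)
      simp [this]
    rw [h2, ← integral_Ioc_eq_integral_Ioo, ← intervalIntegral.integral_of_le hlam.le,
      integral_etaL hP hlam lam, div_self hlam.ne', hP.G1]
    simp

/-- The remainder multiplier. -/
noncomputable def rL (a t : ι → ℝ) (Gp : ℝ → ℝ) (lam ξ : ℝ) : ℝ :=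
  ∑ i, a i * Gplus Gp (|ξ| / (t i * lam))

/-- The inner integral of the step multiplier. -/
theorem inner_step {Gp h : ℝ → ℝ} (hP : Profile Gp h) (a t : ι → ℝ) (hsum : ∑ i, a i = 1)
    (ht : ∀ i, 0 < t i) {lam : ℝ} (hlam : 0 < lam) (ξ : ℝ) :
    ∫ s in Ioo 0 lam, etaL h lam s * stepM a t s ξ = 1 - rL a t Gp lam ξ := by
  have hint : ∀ i, IntegrableOn (fun s => etaL h lam s * (a i * (if t i * s < |ξ| then 1 else 0)))
      (Ioo 0 lam) := by
    intro i
    have h1 : IntegrableOn (etaL h lam) (Ioo 0 lam) :=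
      ((continuous_etaL hP.cont_h lam).integrableOn_Icc).mono_set Ioo_subset_Icc_self
    refine h1.mul_bdd (c := |a i|) ?_ ?_
    · refine Measurable.aestronglyMeasurable (Measurable.const_mul ?_ _)
      refine Measurable.ite ?_ measurable_const measurable_const
      exact measurableSet_lt (by fun_prop) measurable_const
    · refine Filter.Eventually.of_forall fun s => ?_
      rw [Real.norm_eq_abs, abs_mul]
      split_ifs <;> simp
  simp only [stepM, Finset.mul_sum]
  rw [integral_finsetSum _ fun i _ => hint i]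
  have h2 : ∀ i, ∫ s in Ioo 0 lam, etaL h lam s * (a i * (if t i * s < |ξ| then 1 else 0)) =
      a i * (1 - Gplus Gp (|ξ| / (t i * lam))) := by
    intro i
    rw [← inner_level hP hlam (ht i) ξ, ← integral_const_mul]
    refine integral_congr_ae (Filter.Eventually.of_forall fun s => ?_)
    simp only []
    ring
  simp only [h2, rL, mul_sub, mul_one, Finset.sum_sub_distrib, hsum]

/-- The remainder multiplier is bounded. -/
theorem exists_bound_rL {Gp h : ℝ → ℝ} (hP : Profile Gp h) (a t : ι → ℝ)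
    (ht : ∀ i, 0 < t i) {lam : ℝ} (hlam : 0 < lam) :
    ∃ C, ∀ ξ, |rL a t Gp lam ξ| ≤ C := by
  have hGc : Continuous Gp := continuous_iff_continuousAt.2 fun y => (hP.hasDeriv y).continuousAt
  obtain ⟨C, hC⟩ := isCompact_Icc.exists_bound_of_continuousOn
    (s := Icc (0:ℝ) 1) hGc.continuousOn
  have hC0 : 0 ≤ C := (norm_nonneg _).trans (hC 0 (by simp))
  have hb : ∀ ξ i, |Gplus Gp (|ξ| / (t i * lam))| ≤ C := by
    intro ξ i
    have hp : 0 < t i * lam := mul_pos (ht i) hlam
    have h0 : 0 ≤ |ξ| / (t i * lam) := by positivity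
    unfold Gplus
    split_ifs with h1
    · exact hC _ ⟨h0, h1.le⟩
    · simpa using hC0
  refine ⟨∑ i, |a i| * C, fun ξ => ?_⟩
  unfold rL
  refine (Finset.abs_sum_le_sum_abs _ _).trans (Finset.sum_le_sum fun i _ => ?_)
  rw [abs_mul]
  exact mul_le_mul_of_nonneg_left (hb ξ i) (abs_nonneg _)

/-- The decomposition of the inverse transform along scales. -/
theorem decomp {Gp h : ℝ → ℝ} (hP : Profile Gp h) (a t : ι → ℝ) (hsum : ∑ i, a i = 1)
    (ht : ∀ i, 0 < t i) {lam : ℝ} (hlam : 0 < lam) {g : ℝ → ℂ} (hg : Integrable g) (x : ℝ) :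
    (𝓕⁻ g : ℝ → ℂ) x = (∫ s in Ioo 0 lam, (etaL h lam s : ℂ) * filt a t g s x) +
      ∫ ξ, chi x ξ * ((rL a t Gp lam ξ : ℂ) * g ξ) := by
  have hchi : Measurable (fun ξ => chi x ξ) :=
    (continuous_chi.comp (by fun_prop : Continuous fun ξ : ℝ => (x, ξ))).measurable
  -- integrability on the product
  have hprod : Integrable (fun q : ℝ × ℝ => (etaL h lam q.1 : ℂ) * (chi x q.2 *
      ((stepM a t q.1 q.2 : ℂ) * g q.2))) ((volume.restrict (Ioo 0 lam)).prod volume) := by
    have h1 : Integrable (fun s : ℝ => (etaL h lam s : ℂ)) (volume.restrict (Ioo 0 lam)) := by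
      have h0 : IntegrableOn (etaL h lam) (Ioo 0 lam) :=
        ((continuous_etaL hP.cont_h lam).integrableOn_Icc).mono_set Ioo_subset_Icc_self
      exact h0.ofReal
    have h2 : Integrable (fun q : ℝ × ℝ => (etaL h lam q.1 : ℂ) * g q.2)
        ((volume.restrict (Ioo 0 lam)).prod volume) := h1.mul_prod hg
    have h3 := h2.bdd_mul (c := ∑ i, |a i|) (f := fun q : ℝ × ℝ => chi x q.2 * (stepM a t q.1 q.2 : ℂ))
      ?_ ?_
    · refine h3.congr (Filter.Eventually.of_forall fun q => ?_)
      simp only []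
      ring
    · refine Measurable.aestronglyMeasurable (hchi.comp measurable_snd |>.mul ?_)
      exact Complex.measurable_ofReal.comp (measurable_stepM a t)
    · refine Filter.Eventually.of_forall fun q => ?_
      rw [norm_mul, norm_chi, one_mul, Complex.norm_real, Real.norm_eq_abs]
      exact abs_stepM_le a t _ _
  have hswap := integral_integral_swap (f := fun s ξ => (etaL h lam s : ℂ) * (chi x ξ *
      ((stepM a t s ξ : ℂ) * g ξ))) (μ := volume.restrict (Ioo 0 lam)) (ν := volume) hprod
  have h1 : ∫ s in Ioo 0 lam, (etaL h lam s : ℂ) * filt a t g s x =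
      ∫ ξ, chi x ξ * (((1 - rL a t Gp lam ξ : ℝ) : ℂ) * g ξ) := by
    simp only [filt]
    simp only [← integral_const_mul]
    rw [hswap]
    refine integral_congr_ae (Filter.Eventually.of_forall fun ξ => ?_)
    simp only []
    rw [← inner_step hP a t hsum ht hlam ξ]
    rw [← integral_complex_ofReal]
    push_cast
    have e1 : ∫ (s : ℝ) in Ioo 0 lam, (etaL h lam s : ℂ) * (chi x ξ * ((stepM a t s ξ : ℂ) * g ξ)) =
        ∫ (s : ℝ) in Ioo 0 lam, chi x ξ * (((etaL h lam s : ℂ) * (stepM a t s ξ : ℂ)) * g ξ) := by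
      refine integral_congr_ae (Filter.Eventually.of_forall fun s => ?_)
      simp only []
      ring
    rw [e1, integral_const_mul, integral_mul_const]
  have h2 : Integrable (fun ξ => chi x ξ * g ξ) := by
    refine hg.bdd_mul (c := 1) hchi.aestronglyMeasurable
      (Filter.Eventually.of_forall fun ξ => (norm_chi x ξ).le)
  have hGm : Measurable Gp := (continuous_iff_continuousAt.2
    fun y => (hP.hasDeriv y).continuousAt).measurable
  have hrm : Measurable (fun ξ => rL a t Gp lam ξ) := by
    unfold rL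
    refine Finset.measurable_sum _ fun i _ => Measurable.const_mul ?_ _
    unfold Gplus
    refine Measurable.ite ?_ (hGm.comp (by fun_prop)) measurable_const
    exact measurableSet_lt (by fun_prop) measurable_const
  obtain ⟨C, hC⟩ := exists_bound_rL hP a t ht hlam
  have i2 : Integrable (fun ξ => chi x ξ * ((rL a t Gp lam ξ : ℂ) * g ξ)) := by
    have h3 := h2.bdd_mul (c := C) (f := fun ξ => (rL a t Gp lam ξ : ℂ))
      (Complex.measurable_ofReal.comp hrm).aestronglyMeasurable
      (Filter.Eventually.of_forall fun ξ => by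
        rw [Complex.norm_real, Real.norm_eq_abs]; exact hC ξ)
    refine h3.congr (Filter.Eventually.of_forall fun ξ => ?_)
    simp only []
    ring
  have i1 : Integrable (fun ξ => chi x ξ * (((1 - rL a t Gp lam ξ : ℝ) : ℂ) * g ξ)) := by
    have h3 := h2.sub i2
    refine h3.congr (Filter.Eventually.of_forall fun ξ => ?_)
    simp only [Pi.sub_apply]
    push_cast
    ring
  rw [h1, ← integral_add i1 i2, fourierInv_eq_chi]
  refine integral_congr_ae (Filter.Eventually.of_forall fun ξ => ?_)
  simp only []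
  push_cast
  ring

end Vale.Agent.Lib.P371
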