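import Vale.Agent.Lib.P371.Energy

/-!
The pointwise lower bound for the scale energy density.
-/

open MeasureTheory FourierTransform Set Filter Topology
open scoped ENNReal RealInnerProductSpace Real

namespace Vale.Agent.Lib.P371

variable {ι : Type*} [Fintype ι]

/-- The constant attached to the weight. -/
noncomputable def H2 (h : ℝ → ℝ) : ℝ := ∫ y in (0:ℝ)..1, (y / 2) * (h y) ^ 2

/-- The constant attached to the remainder. -/
noncomputable def R2 (a t : ι → ℝ) (Gp : ℝ → ℝ) : ℝ := ∫ τ, (rL a t Gp 1 τ) ^ 2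

theorem etaL_sq_div {h : ℝ → ℝ} {lam : ℝ} (hlam : 0 < lam) {s : ℝ} (hs : 0 < s) :
    (etaL h lam s) ^ 2 / (2 * s) = (1 / lam ^ 3) * ((s / lam) / 2 * (h (s / lam)) ^ 2) := by
  unfold etaL
  field_simp

theorem continuous_etaQ {h : ℝ → ℝ} (hh : Continuous h) (lam : ℝ) :
    Continuous fun s : ℝ => (1 / lam ^ 3) * ((s / lam) / 2 * (h (s / lam)) ^ 2) := by
  have h1 : Continuous fun s : ℝ => s / lam := continuous_id.div_const _
  exact continuous_const.mul ((h1.div_const 2).mul ((hh.comp h1).pow 2))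

theorem integral_etaQ {h : ℝ → ℝ} {lam : ℝ} (hlam : 0 < lam) :
    ∫ s in (0:ℝ)..lam, (1 / lam ^ 3) * ((s / lam) / 2 * (h (s / lam)) ^ 2) = H2 h / lam ^ 2 := by
  rw [intervalIntegral.integral_const_mul]
  have := intervalIntegral.integral_comp_div (a := 0) (b := lam)
    (fun u => u / 2 * (h u) ^ 2) hlam.ne'
  rw [this, zero_div, div_self hlam.ne', H2]
  simp only [smul_eq_mul]
  field_simp

/-- The Young inequality in the scale variable. -/
theorem young_scale {h : ℝ → ℝ} (hh : Continuous h) {lam μ : ℝ} (hlam : 0 < lam) (hμ : 0 < μ)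
    {Y : ℝ → ℝ} (hYm : Measurable Y) {T : ℝ}
    (hYi : IntegrableOn (fun s => (Y s) ^ 2 * (2 * s)) (Ioi 0))
    (hYT : ∫ s in Ioi (0:ℝ), (Y s) ^ 2 * (2 * s) = T) :
    IntegrableOn (fun s => |etaL h lam s| * |Y s|) (Ioo 0 lam) ∧
    (∫ s in Ioo 0 lam, |etaL h lam s| * |Y s|) ≤ (μ / 2) * (H2 h / lam ^ 2) + T / (2 * μ) := by
  have hQ := continuous_etaQ hh lam
  have i1 : IntegrableOn (fun s : ℝ => (1 / lam ^ 3) * ((s / lam) / 2 * (h (s / lam)) ^ 2))
      (Ioo 0 lam) := hQ.integrableOn_Icc.mono_set Ioo_subset_Icc_self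
  have i2 : IntegrableOn (fun s => (Y s) ^ 2 * (2 * s)) (Ioo 0 lam) :=
    hYi.mono_set Ioo_subset_Ioi_self
  have hpt : ∀ s ∈ Ioo 0 lam, |etaL h lam s| * |Y s| ≤
      (μ / 2) * ((1 / lam ^ 3) * ((s / lam) / 2 * (h (s / lam)) ^ 2)) +
        (1 / (2 * μ)) * ((Y s) ^ 2 * (2 * s)) := by
    intro s hs
    have hs0 : 0 < s := hs.1
    rw [← etaL_sq_div hlam hs0]
    have e : ∀ u v : ℝ, |u| * |v| ≤ (μ / 2) * (u ^ 2 / (2 * s)) + (1 / (2 * μ)) * (v ^ 2 * (2 * s)) := by
      intro u v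
      have h3 : 0 < 2 * s := by positivity
      have h4 : (μ / 2) * (u ^ 2 / (2 * s)) + (1 / (2 * μ)) * (v ^ 2 * (2 * s)) - |u| * |v| =
          (|u| * μ - |v| * (2 * s)) ^ 2 / (2 * μ * (2 * s)) := by
        have := sq_abs u
        have := sq_abs v
        field_simp
        nlinarith [sq_abs u, sq_abs v]
      have h5 : 0 ≤ (|u| * μ - |v| * (2 * s)) ^ 2 / (2 * μ * (2 * s)) := by positivity
      linarith
    exact e _ _
  have j1 := i1.const_mul (μ / 2)
  have j2 := i2.const_mul (1 / (2 * μ))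
  have iR : IntegrableOn (fun s => (μ / 2) * ((1 / lam ^ 3) * ((s / lam) / 2 * (h (s / lam)) ^ 2)) +
        (1 / (2 * μ)) * ((Y s) ^ 2 * (2 * s))) (Ioo 0 lam) := j1.add j2
  have iL : IntegrableOn (fun s => |etaL h lam s| * |Y s|) (Ioo 0 lam) := by
    refine Integrable.mono' iR ?_ ?_
    · exact ((continuous_etaL hh lam).abs.measurable.mul hYm.abs).aestronglyMeasurable
    · refine (ae_restrict_iff' measurableSet_Ioo).2 (Eventually.of_forall fun s hs => ?_)
      rw [Real.norm_eq_abs, abs_of_nonneg (by positivity)]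
      exact hpt s hs
  have hle : ∫ s in Ioo 0 lam, |etaL h lam s| * |Y s| ≤ ∫ s in Ioo 0 lam,
      ((μ / 2) * ((1 / lam ^ 3) * ((s / lam) / 2 * (h (s / lam)) ^ 2)) +
        (1 / (2 * μ)) * ((Y s) ^ 2 * (2 * s))) :=
    setIntegral_mono_on iL iR measurableSet_Ioo hpt
  refine ⟨iL, hle.trans ?_⟩
  rw [integral_add j1 j2, integral_const_mul (μ / 2), integral_const_mul (1 / (2 * μ))]
  have e1 : ∫ s in Ioo 0 lam, (1 / lam ^ 3) * ((s / lam) / 2 * (h (s / lam)) ^ 2) = H2 h / lam ^ 2 := by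
    rw [← integral_Ioc_eq_integral_Ioo, ← intervalIntegral.integral_of_le hlam.le, integral_etaQ hlam]
  rw [e1]
  have e2 : ∫ s in Ioo 0 lam, (Y s) ^ 2 * (2 * s) ≤ T := by
    rw [← hYT]
    refine setIntegral_mono_set hYi ?_ (Ioo_subset_Ioi_self.eventuallyLE)
    refine (ae_restrict_iff' measurableSet_Ioi).2 (Eventually.of_forall fun s hs => ?_)
    have hs' : (0:ℝ) < s := hs
    simp only [Pi.zero_apply]
    positivity
  have e3 : 0 < 1 / (2 * μ) := by positivity
  have : (1 / (2 * μ)) * ∫ s in Ioo 0 lam, (Y s) ^ 2 * (2 * s) ≤ (1 / (2 * μ)) * T :=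
    mul_le_mul_of_nonneg_left e2 e3.le
  calc _ ≤ μ / 2 * (H2 h / lam ^ 2) + (1 / (2 * μ)) * T := by linarith
    _ = _ := by field_simp

theorem measurable_rL {Gp h : ℝ → ℝ} (hP : Profile Gp h) (a t : ι → ℝ) (lam : ℝ) :
    Measurable (fun ξ => rL a t Gp lam ξ) := by
  have hGm : Measurable Gp := (continuous_iff_continuousAt.2
    fun y => (hP.hasDeriv y).continuousAt).measurable
  unfold rL
  refine Finset.measurable_sum _ fun i _ => Measurable.const_mul ?_ _
  unfold Gplus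
  refine Measurable.ite ?_ (hGm.comp (by fun_prop)) measurable_const
  exact measurableSet_lt (by fun_prop) measurable_const

theorem rL_scale (a t : ι → ℝ) (Gp : ℝ → ℝ) {lam : ℝ} (hlam : 0 < lam) (ξ : ℝ) :
    rL a t Gp lam ξ = rL a t Gp 1 (ξ / lam) := by
  unfold rL
  refine Finset.sum_congr rfl fun i _ => ?_
  rw [abs_div, abs_of_pos hlam, mul_one, div_div, mul_comm lam]

theorem integrable_rL_sq {Gp h : ℝ → ℝ} (hP : Profile Gp h) (a t : ι → ℝ)
    (ht : ∀ i, 0 < t i) {lam : ℝ} (hlam : 0 < lam) :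
    Integrable (fun ξ => (rL a t Gp lam ξ) ^ 2) := by
  obtain ⟨C, hC⟩ := exists_bound_rL hP a t ht hlam
  set T := ∑ i, t i * lam with hT
  have hvan : ∀ ξ, T ≤ |ξ| → rL a t Gp lam ξ = 0 := by
    intro ξ hξ
    unfold rL
    refine Finset.sum_eq_zero fun i _ => ?_
    have hp : 0 < t i * lam := mul_pos (ht i) hlam
    have h1 : t i * lam ≤ T := by
      rw [hT]
      exact Finset.single_le_sum (f := fun i => t i * lam)
        (fun j _ => (mul_pos (ht j) hlam).le) (Finset.mem_univ i)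
    have h2 : ¬ |ξ| / (t i * lam) < 1 := by
      rw [div_lt_one hp]; linarith
    simp [Gplus, h2]
  have hi : Integrable ((Icc (-T) T).indicator fun _ : ℝ => C ^ 2) :=
    (integrable_indicator_iff measurableSet_Icc).2 (integrableOn_const (by simp))
  refine hi.mono' ((measurable_rL hP a t lam).pow_const 2).aestronglyMeasurable
    (Eventually.of_forall fun ξ => ?_)
  rw [Real.norm_eq_abs, abs_pow, sq_abs]
  by_cases hξ : ξ ∈ Icc (-T) T
  · rw [indicator_of_mem hξ]
    have := hC ξ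
    exact sq_le_sq' (by linarith [abs_le.1 this]) (abs_le.1 this).2
  · rw [indicator_of_notMem hξ]
    have h3 : T ≤ |ξ| := by
      by_contra hc
      push Not at hc
      exact hξ (abs_le.1 hc.le)
    rw [hvan ξ h3]
    simp

theorem integral_rL_sq (a t : ι → ℝ) (Gp : ℝ → ℝ) {lam : ℝ} (hlam : 0 < lam) :
    ∫ ξ, (rL a t Gp lam ξ) ^ 2 = lam * R2 a t Gp := by
  simp only [rL_scale a t Gp hlam]
  have := Measure.integral_comp_div (fun τ => (rL a t Gp 1 τ) ^ 2) lam
  rw [this, abs_of_pos hlam, smul_eq_mul, R2]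

/-- The scalar inequality along the scales. -/
theorem scalar_ineq {Gp h : ℝ → ℝ} (hP : Profile Gp h) (a t : ι → ℝ) (hsum : ∑ i, a i = 1)
    (ht : ∀ i, 0 < t i) {lam : ℝ} (hlam : 0 < lam) {W : ℝ → ℂ} (hW1 : Integrable W)
    (hW2 : MemLp W 2 volume) (x : ℝ) :
    ‖(𝓕⁻ W : ℝ → ℂ) x‖ ≤ (∫ s in Ioo 0 lam, |etaL h lam s| * ‖filt a t W s x‖) +
      (3 / 4) * (lam * R2 a t Gp) + (1 / 3) * ∫ ξ, ‖W ξ‖ ^ 2 := by
  rw [decomp hP a t hsum ht hlam hW1 x]
  have hn1 : ‖∫ s in Ioo 0 lam, (etaL h lam s : ℂ) * filt a t W s x‖ ≤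
      ∫ s in Ioo 0 lam, |etaL h lam s| * ‖filt a t W s x‖ := by
    refine (norm_integral_le_integral_norm _).trans (le_of_eq ?_)
    refine integral_congr_ae (Eventually.of_forall fun s => ?_)
    simp only [norm_mul, Complex.norm_real, Real.norm_eq_abs]
  have i1 := integrable_rL_sq hP a t ht hlam
  have i2 : Integrable fun ξ => ‖W ξ‖ ^ 2 := hW2.integrable_norm_pow (by norm_num)
  have hn2 : ‖∫ ξ, chi x ξ * ((rL a t Gp lam ξ : ℂ) * W ξ)‖ ≤
      (3 / 4) * (lam * R2 a t Gp) + (1 / 3) * ∫ ξ, ‖W ξ‖ ^ 2 := by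
    rw [← integral_rL_sq a t Gp hlam, ← integral_const_mul, ← integral_const_mul,
      ← integral_add (i1.const_mul _) (i2.const_mul _)]
    refine (norm_integral_le_integral_norm _).trans ?_
    refine integral_mono_of_nonneg (Eventually.of_forall fun ξ => norm_nonneg _)
      ((i1.const_mul _).add (i2.const_mul _)) (Eventually.of_forall fun ξ => ?_)
    simp only [norm_mul, norm_chi, one_mul, Complex.norm_real, Real.norm_eq_abs]
    set u := |rL a t Gp lam ξ| with hu
    set v := ‖W ξ‖ with hv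
    have hu2 : (rL a t Gp lam ξ) ^ 2 = u ^ 2 := by rw [hu, sq_abs]
    rw [hu2]
    nlinarith [sq_nonneg (3 * u - 2 * v)]
  calc _ ≤ _ := norm_add_le _ _
    _ ≤ _ := by linarith

/-- The pointwise lower bound for a family of functions with the Bessel property. -/
theorem vector_bound {J : Type*} [Fintype J] {Gp h : ℝ → ℝ} (hP : Profile Gp h) (a t : ι → ℝ)
    (hsum : ∑ i, a i = 1) (ht : ∀ i, 0 < t i) (hR : 0 < R2 a t Gp) (hH : 0 < H2 h)
    (G : J → ℝ → ℂ) (hGm : ∀ j, StronglyMeasurable (G j)) (hG1 : ∀ j, Integrable (G j))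
    (hG2 : ∀ j, MemLp (G j) 2 volume)
    (hB : ∀ c : J → ℂ, ∫ ξ, ‖∑ j, c j * G j ξ‖ ^ 2 ≤ ∑ j, ‖c j‖ ^ 2) (x : ℝ) :
    ENNReal.ofReal ((16 / 729) / ((R2 a t Gp) ^ 2 * H2 h) *
        (∑ j, ‖(𝓕⁻ (G j) : ℝ → ℂ) x‖ ^ 2) ^ 3) ≤
      ∫⁻ s in Ioi (0:ℝ), ENNReal.ofReal ((∑ j, ‖filt a t (G j) s x‖ ^ 2) * (2 * s)) := by
  set b : J → ℂ := fun j => (𝓕⁻ (G j) : ℝ → ℂ) x with hb
  set A2 := ∑ j, ‖b j‖ ^ 2 with hA2
  have hA2nn : 0 ≤ A2 := Finset.sum_nonneg fun j _ => by positivity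
  rcases hA2nn.eq_or_lt with h0 | hApos
  · rw [← h0]; simp
  set A := Real.sqrt A2 with hA
  have hAp : 0 < A := Real.sqrt_pos.2 hApos
  have hAsq : A ^ 2 = A2 := Real.sq_sqrt hA2nn
  set R := R2 a t Gp with hRdef
  set HH := H2 h with hHdef
  by_cases htop : ∫⁻ s in Ioi (0:ℝ), ENNReal.ofReal ((∑ j, ‖filt a t (G j) s x‖ ^ 2) * (2 * s)) = ⊤
  · rw [htop]; exact le_top
  -- the scale function
  set Y : ℝ → ℝ := fun s => Real.sqrt (∑ j, ‖filt a t (G j) s x‖ ^ 2) with hY
  have hfm : ∀ j, Measurable fun s => filt a t (G j) s x := fun j =>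
    measurable_filt_scale a t (hGm j) x
  have hsm : Measurable fun s => ∑ j, ‖filt a t (G j) s x‖ ^ 2 :=
    Finset.measurable_sum _ fun j _ => ((hfm j).norm.pow_const 2)
  have hYm : Measurable Y := hsm.sqrt
  have hYsq : ∀ s, (Y s) ^ 2 = ∑ j, ‖filt a t (G j) s x‖ ^ 2 := fun s =>
    Real.sq_sqrt (Finset.sum_nonneg fun j _ => by positivity)
  have hFm : Measurable fun s => (Y s) ^ 2 * (2 * s) :=
    (hYm.pow_const 2).mul (by fun_prop)
  have hnn : 0 ≤ᵐ[volume.restrict (Ioi (0:ℝ))] fun s => (Y s) ^ 2 * (2 * s) := by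
    refine (ae_restrict_iff' measurableSet_Ioi).2 (Eventually.of_forall fun s hs => ?_)
    have hs' : (0:ℝ) < s := hs
    simp only [Pi.zero_apply]
    positivity
  have hYi : IntegrableOn (fun s => (Y s) ^ 2 * (2 * s)) (Ioi 0) := by
    refine ⟨hFm.aestronglyMeasurable, ?_⟩
    rw [hasFiniteIntegral_iff_ofReal hnn]
    simp only [hYsq]
    exact lt_top_iff_ne_top.2 htop
  set T := ∫ s in Ioi (0:ℝ), (Y s) ^ 2 * (2 * s) with hT
  have hrhs : ∫⁻ s in Ioi (0:ℝ), ENNReal.ofReal ((∑ j, ‖filt a t (G j) s x‖ ^ 2) * (2 * s)) =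
      ENNReal.ofReal T := by
    rw [hT, ofReal_integral_eq_lintegral_ofReal hYi hnn]
    simp only [hYsq]
  rw [hrhs]
  refine ENNReal.ofReal_le_ofReal ?_
  -- the auxiliary function
  set W : ℝ → ℂ := fun ξ => ∑ j, (starRingEnd ℂ) (b j) * G j ξ with hWdef
  have hW1 : Integrable W := integrable_finsetSum _ fun j _ => (hG1 j).const_mul _
  have hW2 : MemLp W 2 volume := memLp_finset_sum _ fun j _ => (hG2 j).const_mul _
  have hWinv : (𝓕⁻ W : ℝ → ℂ) x = (A2 : ℂ) := by
    rw [fourierInv_eq_chi]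
    simp only [hWdef, Finset.mul_sum]
    rw [integral_finsetSum]
    · have : ∀ j, ∫ ξ, chi x ξ * ((starRingEnd ℂ) (b j) * G j ξ) = (starRingEnd ℂ) (b j) * b j := by
        intro j
        rw [hb]
        simp only []
        rw [fourierInv_eq_chi, ← integral_const_mul]
        refine integral_congr_ae (Eventually.of_forall fun ξ => ?_)
        simp only []
        ring
      simp only [this, hA2]
      push_cast
      refine Finset.sum_congr rfl fun j _ => ?_
      rw [mul_comm, Complex.mul_conj, Complex.normSq_eq_norm_sq]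
      push_cast
      rfl
    · intro j _
      refine ((hG1 j).const_mul ((starRingEnd ℂ) (b j))).bdd_mul (c := 1)
        (f := fun ξ => chi x ξ) ?_ ?_
      · exact (continuous_chi.comp (by fun_prop : Continuous fun ξ : ℝ => (x, ξ))).aestronglyMeasurable
      · exact Eventually.of_forall fun ξ => (norm_chi x ξ).le
  have hWfilt : ∀ s, filt a t W s x = ∑ j, (starRingEnd ℂ) (b j) * filt a t (G j) s x := by
    intro s
    unfold filt
    simp only [hWdef, Finset.mul_sum]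
    rw [integral_finsetSum]
    · refine Finset.sum_congr rfl fun j _ => ?_
      rw [← integral_const_mul]
      refine integral_congr_ae (Eventually.of_forall fun ξ => ?_)
      simp only []
      ring
    · intro j _
      have hmm : Measurable (fun ξ : ℝ => stepM a t s ξ) :=
        (measurable_stepM a t).comp (by fun_prop : Measurable fun ξ : ℝ => (s, ξ))
      refine ((hG1 j).const_mul ((starRingEnd ℂ) (b j))).bdd_mul (c := ∑ i, |a i|)
        (f := fun ξ => chi x ξ * (stepM a t s ξ : ℂ)) ?_ ?_ |>.congr ?_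
      · exact ((continuous_chi.comp (by fun_prop : Continuous fun ξ : ℝ => (x, ξ))).measurable.mul
          (Complex.measurable_ofReal.comp hmm)).aestronglyMeasurable
      · refine Eventually.of_forall fun ξ => ?_
        rw [norm_mul, norm_chi, one_mul, Complex.norm_real, Real.norm_eq_abs]
        exact abs_stepM_le a t s ξ
      · refine Eventually.of_forall fun ξ => ?_
        simp only []
        ring
  have hWnorm : ∫ ξ, ‖W ξ‖ ^ 2 ≤ A2 := by
    have := hB fun j => (starRingEnd ℂ) (b j)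
    simpa [hA2] using this
  have hCS : ∀ s, ‖filt a t W s x‖ ≤ A * Y s := by
    intro s
    rw [hWfilt]
    refine (norm_sum_le _ _).trans ?_
    simp only [norm_mul, RCLike.norm_conj]
    have h1 := Finset.sum_mul_sq_le_sq_mul_sq Finset.univ (fun j => ‖b j‖)
      (fun j => ‖filt a t (G j) s x‖)
    have h2 : 0 ≤ A * Y s := mul_nonneg hAp.le (Real.sqrt_nonneg _)
    have h3 : (A * Y s) ^ 2 = (∑ j, ‖b j‖ ^ 2) * ∑ j, ‖filt a t (G j) s x‖ ^ 2 := by
      rw [mul_pow, hAsq, hYsq]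
    exact abs_le_of_sq_le_sq' (by rw [h3]; exact h1) h2 |>.2
  -- the choice of scale
  set lam := 4 * A2 / (9 * R) with hlamdef
  have hlam : 0 < lam := by positivity
  set μ := A * lam ^ 2 / (3 * HH) with hμdef
  have hμ : 0 < μ := by positivity
  have hS := scalar_ineq hP a t hsum ht hlam hW1 hW2 x
  rw [hWinv, Complex.norm_real, Real.norm_eq_abs, abs_of_pos hApos] at hS
  obtain ⟨iL, hY2⟩ := young_scale hP.cont_h (μ := μ) hlam hμ hYm hYi rfl
  have hint : ∫ s in Ioo 0 lam, |etaL h lam s| * ‖filt a t W s x‖ ≤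
      A * ∫ s in Ioo 0 lam, |etaL h lam s| * |Y s| := by
    rw [← integral_const_mul]
    refine integral_mono_of_nonneg (Eventually.of_forall fun s => by positivity)
      (iL.const_mul A) (Eventually.of_forall fun s => ?_)
    simp only []
    have := hCS s
    have h5 : |Y s| = Y s := abs_of_nonneg (Real.sqrt_nonneg _)
    rw [h5]
    calc |etaL h lam s| * ‖filt a t W s x‖ ≤ |etaL h lam s| * (A * Y s) :=
          mul_le_mul_of_nonneg_left this (abs_nonneg _)
      _ = A * (|etaL h lam s| * Y s) := by ring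
  have e1 : (3 / 4) * (lam * R) = A2 / 3 := by
    rw [hlamdef]; field_simp; ring
  have e2 : (μ / 2) * (HH / lam ^ 2) = A / 6 := by
    rw [hμdef]; field_simp; ring
  have h6 : A2 / 3 ≤ A * ((μ / 2) * (HH / lam ^ 2) + T / (2 * μ)) := by
    have h7 : (1 / 3) * ∫ ξ, ‖W ξ‖ ^ 2 ≤ A2 / 3 := by linarith
    have h8 : A * ∫ s in Ioo 0 lam, |etaL h lam s| * |Y s| ≤
        A * ((μ / 2) * (HH / lam ^ 2) + T / (2 * μ)) :=
      mul_le_mul_of_nonneg_left hY2 hAp.le
    linarith
  rw [e2, ← hAsq] at h6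
  have h9 : A / 6 ≤ T / (2 * μ) := by
    have : A * (A / 3) ≤ A * (A / 6 + T / (2 * μ)) := by nlinarith
    have h10 := le_of_mul_le_mul_left this hAp
    linarith
  rw [le_div_iff₀ (by positivity)] at h9
  have h11 : A2 ^ 3 * ((16 / 729) / (R ^ 2 * HH)) = A / 6 * (2 * μ) := by
    rw [hμdef, hlamdef, ← hAsq]
    field_simp
    ring
  calc (16 / 729) / (R ^ 2 * HH) * A2 ^ 3 = A / 6 * (2 * μ) := by rw [← h11]; ring
    _ ≤ T := h9

end Vale.Agent.Lib.P371
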