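import Vale.Agent.Lib.P371.MainBound

/-!
Polynomial profiles and the evaluation of the constants.
-/

open MeasureTheory Set Filter
open scoped ENNReal Real

namespace Vale.Agent.Lib.P371

variable {ι : Type*} [Fintype ι]

/-- The polynomial profile. -/
noncomputable def polyG (g : ℕ → ℝ) (n : ℕ) (y : ℝ) : ℝ := ∑ k ∈ Finset.range n, g k * y ^ k

/-- The weight attached to the polynomial profile. -/
noncomputable def polyH (g : ℕ → ℝ) (n : ℕ) (y : ℝ) : ℝ :=
  - ∑ k ∈ Finset.range n, g k * k * y ^ (k - 2)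

theorem continuous_polyG (g : ℕ → ℝ) (n : ℕ) : Continuous (polyG g n) := by
  unfold polyG; fun_prop

theorem continuous_polyH (g : ℕ → ℝ) (n : ℕ) : Continuous (polyH g n) := by
  unfold polyH; fun_prop

theorem polyProfile (g : ℕ → ℝ) (n : ℕ) (hg1 : g 1 = 0) (hG0 : polyG g n 0 = 1)
    (hG1 : polyG g n 1 = 0) : Profile (polyG g n) (polyH g n) := by
  refine ⟨fun y => ?_, continuous_polyH g n, hG0, hG1⟩
  have h1 : HasDerivAt (polyG g n) (∑ k ∈ Finset.range n, g k * ((k:ℝ) * y ^ (k - 1))) y := by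
    unfold polyG
    exact HasDerivAt.fun_sum fun k _ => (hasDerivAt_pow k y).const_mul (g k)
  refine h1.congr_deriv ?_
  simp only [polyH, mul_neg, neg_neg, Finset.mul_sum]
  refine Finset.sum_congr rfl fun k _ => ?_
  rcases k with _ | _ | k
  · simp
  · simp [hg1]
  · simp only [Nat.add_sub_cancel, show k + 1 + 1 - 1 = k + 1 by omega,
      show k + 1 + 1 - 2 = k by omega, pow_succ]
    ring

theorem integral_pow_unit (k : ℕ) : ∫ v in (0:ℝ)..1, v ^ k = 1 / ((k:ℝ) + 1) := by
  rw [integral_pow]; simp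

/-- The integral of the weight. -/
theorem H2_polyH (g : ℕ → ℝ) (n : ℕ) :
    H2 (polyH g n) = (1 / 2) * ∑ k ∈ Finset.range n, ∑ l ∈ Finset.range n,
      g k * k * (g l * l) / (((k - 2 + (l - 2) + 1 : ℕ) : ℝ) + 1) := by
  unfold H2
  have hexp : ∀ y : ℝ, (y / 2) * (polyH g n y) ^ 2 = (1 / 2) * ∑ k ∈ Finset.range n,
      ∑ l ∈ Finset.range n, g k * k * (g l * l) * y ^ (k - 2 + (l - 2) + 1) := by
    intro y
    rw [polyH, neg_sq, sq, Finset.sum_mul_sum, Finset.mul_sum, Finset.mul_sum]
    refine Finset.sum_congr rfl fun k _ => ?_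
    rw [Finset.mul_sum, Finset.mul_sum]
    refine Finset.sum_congr rfl fun l _ => ?_
    rw [pow_succ, pow_add]
    ring
  simp only [hexp]
  rw [intervalIntegral.integral_const_mul, intervalIntegral.integral_finsetSum]
  · congr 1
    refine Finset.sum_congr rfl fun k _ => ?_
    rw [intervalIntegral.integral_finsetSum]
    · refine Finset.sum_congr rfl fun l _ => ?_
      rw [intervalIntegral.integral_const_mul, integral_pow_unit]
      ring
    · intro l _
      exact (by fun_prop : Continuous fun y : ℝ => g k * k * (g l * l) * y ^ (k - 2 + (l - 2) + 1)).intervalIntegrable _ _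
  · intro k _
    exact (by fun_prop : Continuous fun y : ℝ => ∑ l ∈ Finset.range n, g k * k * (g l * l) * y ^ (k - 2 + (l - 2) + 1)).intervalIntegrable _ _

/-- The kernel polynomial. -/
noncomputable def gamma0 (g : ℕ → ℝ) (n : ℕ) (ρ : ℝ) : ℝ :=
  ∑ k ∈ Finset.range n, ∑ l ∈ Finset.range n, g k * g l * ρ ^ l / ((k:ℝ) + l + 1)

theorem integral_polyG_mul (g : ℕ → ℝ) (n : ℕ) (ρ : ℝ) :
    ∫ v in (0:ℝ)..1, polyG g n v * polyG g n (v * ρ) = gamma0 g n ρ := by
  unfold gamma0
  have hexp : ∀ v : ℝ, polyG g n v * polyG g n (v * ρ) = ∑ k ∈ Finset.range n,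
      ∑ l ∈ Finset.range n, g k * g l * ρ ^ l * v ^ (k + l) := by
    intro v
    simp only [polyG, Finset.sum_mul_sum]
    refine Finset.sum_congr rfl fun k _ => Finset.sum_congr rfl fun l _ => ?_
    rw [mul_pow, pow_add]
    ring
  simp only [hexp]
  rw [intervalIntegral.integral_finsetSum]
  · refine Finset.sum_congr rfl fun k _ => ?_
    rw [intervalIntegral.integral_finsetSum]
    · refine Finset.sum_congr rfl fun l _ => ?_
      rw [intervalIntegral.integral_const_mul, integral_pow_unit]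
      push_cast
      ring
    · intro l _
      exact (by fun_prop : Continuous fun y : ℝ => g k * g l * ρ ^ l * y ^ (k + l)).intervalIntegrable _ _
  · intro k _
    exact (by fun_prop : Continuous fun y : ℝ => ∑ l ∈ Finset.range n, g k * g l * ρ ^ l * y ^ (k + l)).intervalIntegrable _ _

/-- The pair integral of two truncated profiles, for ordered scales. -/
theorem pair_Gplus_of_le (g : ℕ → ℝ) (n : ℕ) {A B : ℝ} (hA : 0 < A) (hAB : A ≤ B) :
    ∫ τ, Gplus (polyG g n) (|τ| / A) * Gplus (polyG g n) (|τ| / B) =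
      2 * (A * gamma0 g n (A / B)) := by
  have hB : 0 < B := hA.trans_le hAB
  set F : ℝ → ℝ := fun τ => Gplus (polyG g n) (τ / A) * Gplus (polyG g n) (τ / B) with hF
  have h1 : ∫ τ, F |τ| = 2 * ∫ τ in Ioi (0:ℝ), F τ := integral_comp_abs
  simp only [hF] at h1
  rw [h1]
  congr 1
  have h2 : ∀ τ ∈ Ioi (0:ℝ), Gplus (polyG g n) (τ / A) * Gplus (polyG g n) (τ / B) =
      (Iio A).indicator (fun τ => polyG g n (τ / A) * polyG g n (τ / A * (A / B))) τ := by
    intro τ hτ
    have hτ' : (0:ℝ) < τ := hτ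
    have e1 : τ / A * (A / B) = τ / B := by field_simp
    by_cases h : τ < A
    · have h3 : τ / A < 1 := (div_lt_one hA).2 h
      have h4 : τ / B < 1 := (div_lt_one hB).2 (h.trans_le hAB)
      simp [Set.indicator, h, Gplus, h3, h4, e1]
    · have h3 : ¬ τ / A < 1 := by rw [div_lt_one hA]; exact h
      simp [Set.indicator, h, Gplus, h3]
  rw [setIntegral_congr_fun measurableSet_Ioi h2, setIntegral_indicator measurableSet_Iio]
  have hset : Ioi (0:ℝ) ∩ Iio A = Ioo 0 A := by
    ext s; simp [mem_Ioo]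
  rw [hset, ← integral_Ioc_eq_integral_Ioo, ← intervalIntegral.integral_of_le hA.le]
  have h5 := intervalIntegral.integral_comp_div (a := 0) (b := A)
    (fun v => polyG g n v * polyG g n (v * (A / B))) hA.ne'
  rw [h5, zero_div, div_self hA.ne', integral_polyG_mul, smul_eq_mul]

/-- The symmetric pair kernel. -/
noncomputable def pairK (g : ℕ → ℝ) (n : ℕ) (A B : ℝ) : ℝ :=
  2 * (min A B * gamma0 g n (min A B / max A B))

theorem pair_Gplus (g : ℕ → ℝ) (n : ℕ) {A B : ℝ} (hA : 0 < A) (hB : 0 < B) :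
    ∫ τ, Gplus (polyG g n) (|τ| / A) * Gplus (polyG g n) (|τ| / B) = pairK g n A B := by
  unfold pairK
  rcases le_total A B with h | h
  · rw [pair_Gplus_of_le g n hA h, min_eq_left h, max_eq_right h]
  · have : ∀ τ, Gplus (polyG g n) (|τ| / A) * Gplus (polyG g n) (|τ| / B) =
        Gplus (polyG g n) (|τ| / B) * Gplus (polyG g n) (|τ| / A) := fun τ => mul_comm _ _
    simp only [this]
    rw [pair_Gplus_of_le g n hB h, min_eq_right h, max_eq_left h]

/-- Square integrability of one truncated profile. -/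
theorem memLp_Gplus {Gp h : ℝ → ℝ} (hP : Profile Gp h) {A : ℝ} (hA : 0 < A) :
    MemLp (fun τ => Gplus Gp (|τ| / A)) 2 volume := by
  have h1 := integrable_rL_sq hP (ι := Unit) (fun _ => 1) (fun _ => A) (fun _ => hA) one_pos
  have hm := measurable_rL hP (ι := Unit) (fun _ => 1) (fun _ => A) 1
  simp only [rL, mul_one, Finset.univ_unique, Finset.sum_singleton, one_mul] at h1 hm
  exact (memLp_two_iff_integrable_sq hm.aestronglyMeasurable).2 h1

/-- The remainder constant as a finite double sum. -/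
theorem R2_poly (g : ℕ → ℝ) (n : ℕ) (hP : Profile (polyG g n) (polyH g n)) (a t : ι → ℝ)
    (ht : ∀ i, 0 < t i) :
    R2 a t (polyG g n) = ∑ i, ∑ l, a i * a l * pairK g n (t i) (t l) := by
  unfold R2
  have hexp : ∀ τ, (rL a t (polyG g n) 1 τ) ^ 2 = ∑ i, ∑ l, a i * a l *
      (Gplus (polyG g n) (|τ| / t i) * Gplus (polyG g n) (|τ| / t l)) := by
    intro τ
    simp only [rL, mul_one, sq, Finset.sum_mul_sum]
    refine Finset.sum_congr rfl fun i _ => Finset.sum_congr rfl fun l _ => ?_
    ring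
  have hint : ∀ i l, Integrable fun τ => a i * a l *
      (Gplus (polyG g n) (|τ| / t i) * Gplus (polyG g n) (|τ| / t l)) := fun i l =>
    ((memLp_Gplus hP (ht i)).integrable_mul (memLp_Gplus hP (ht l))).const_mul _
  simp only [hexp]
  rw [integral_finsetSum _ fun i _ => integrable_finsetSum _ fun l _ => hint i l]
  refine Finset.sum_congr rfl fun i _ => ?_
  rw [integral_finsetSum _ fun l _ => hint i l]
  refine Finset.sum_congr rfl fun l _ => ?_
  rw [integral_const_mul, pair_Gplus g n (ht i) (ht l)]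

end Vale.Agent.Lib.P371
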