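import Vale.Agent.Lib.P371.PolyProfile

/-!
Strict positivity of the two constants attached to the scale partition.
-/

open MeasureTheory Set Filter Topology
open scoped Real

namespace Vale.Agent.Lib.P371

variable {ι : Type*} [Fintype ι]

theorem cStep_pos (a t : ι → ℝ) (ht : ∀ i, 0 < t i) (hsum : ∑ i, a i = 1) : 0 < cStep a t := by
  have hne : Nonempty ι := by
    by_contra h
    rw [not_nonempty_iff] at h
    simp at hsum
  have ⟨hi, he⟩ := step_partition a t ht 1
  simp only [one_pow, mul_one] at he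
  rw [← he]
  have hnn : 0 ≤ᵐ[volume.restrict (Ioi (0:ℝ))] fun s => (stepM a t s 1) ^ 2 * (2 * s) := by
    refine (ae_restrict_iff' measurableSet_Ioi).2 (Eventually.of_forall fun s hs => ?_)
    have hs' : (0:ℝ) < s := hs
    simp only [Pi.zero_apply]
    positivity
  rw [setIntegral_pos_iff_support_of_nonneg_ae hnn hi]
  set T := ∑ i, t i with hT
  have hTpos : 0 < T := Finset.sum_pos (fun i _ => ht i) Finset.univ_nonempty
  have hsub : Ioo 0 (1 / T) ⊆ Function.support (fun s => (stepM a t s 1) ^ 2 * (2 * s)) ∩ Ioi 0 := by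
    intro s hs
    refine ⟨?_, hs.1⟩
    have hs1 : s * T < 1 := by
      have := hs.2
      rwa [lt_div_iff₀ hTpos] at this
    have hM : stepM a t s 1 = 1 := by
      unfold stepM
      refine Eq.trans ?_ hsum
      refine Finset.sum_congr rfl fun i _ => ?_
      have h1 : t i ≤ T := Finset.single_le_sum (f := t) (fun l _ => (ht l).le) (Finset.mem_univ i)
      have h2 : t i * s < |(1:ℝ)| := by
        rw [abs_one]
        nlinarith [hs.1]
      rw [if_pos h2, mul_one]
    rw [Function.mem_support, hM]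
    have := hs.1
    positivity
  refine lt_of_lt_of_le ?_ (measure_mono hsub)
  rw [Real.volume_Ioo]
  simp only [sub_zero, ENNReal.ofReal_pos]
  positivity

theorem R2_pos {Gp h : ℝ → ℝ} (hP : Profile Gp h) (a t : ι → ℝ) (ht : ∀ i, 0 < t i)
    (hsum : ∑ i, a i = 1) : 0 < R2 a t Gp := by
  unfold R2
  have hi := integrable_rL_sq hP a t ht one_pos
  have hnn : 0 ≤ᵐ[volume] fun τ => (rL a t Gp 1 τ) ^ 2 :=
    Eventually.of_forall fun τ => by simp only [Pi.zero_apply]; positivity
  rw [integral_pos_iff_support_of_nonneg_ae hnn hi]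
  have hGc : Continuous Gp := continuous_iff_continuousAt.2 fun y => (hP.hasDeriv y).continuousAt
  have hk : Continuous fun τ : ℝ => ∑ i, a i * Gp (|τ| / (t i * 1)) := by
    refine continuous_finsetSum _ fun i _ => continuous_const.mul (hGc.comp ?_)
    exact continuous_abs.div_const _
  have hk0 : (∑ i, a i * Gp (|(0:ℝ)| / (t i * 1))) = 1 := by
    simp [hP.G0, hsum]
  have e1 : ∀ᶠ τ : ℝ in 𝓝 0, (1 / 2 : ℝ) < ∑ i, a i * Gp (|τ| / (t i * 1)) :=
    hk.continuousAt.eventually (lt_mem_nhds (by show (1 / 2 : ℝ) < ∑ i, a i * Gp (|(0:ℝ)| / (t i * 1)); rw [hk0]; norm_num))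
  have e2 : ∀ᶠ τ : ℝ in 𝓝 0, ∀ i, |τ| / (t i * 1) < 1 := by
    rw [eventually_all]
    intro i
    have hc : Continuous fun τ : ℝ => |τ| / (t i * 1) := continuous_abs.div_const _
    refine hc.continuousAt.eventually (gt_mem_nhds ?_)
    simp
  have hmem : Function.support (fun τ => (rL a t Gp 1 τ) ^ 2) ∈ 𝓝 (0:ℝ) := by
    filter_upwards [e1, e2] with τ h1 h2
    have e3 : rL a t Gp 1 τ = ∑ i, a i * Gp (|τ| / (t i * 1)) := by
      unfold rL
      refine Finset.sum_congr rfl fun i _ => ?_
      unfold Gplus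
      rw [if_pos (h2 i)]
    rw [Function.mem_support, e3]
    have : (0:ℝ) < ∑ i, a i * Gp (|τ| / (t i * 1)) := by linarith
    positivity
  exact Measure.measure_pos_of_mem_nhds volume hmem

theorem R2_nonneg (a t : ι → ℝ) (Gp : ℝ → ℝ) : 0 ≤ R2 a t Gp :=
  integral_nonneg fun _ => sq_nonneg _

end Vale.Agent.Lib.P371
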