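import Vale.Agent.Lib.P371.Positive

/-!
Exact rational forms of the constants.
-/

open MeasureTheory Set Filter
open scoped Real

namespace Vale.Agent.Lib.P371

variable {ι : Type*} [Fintype ι]

/-- Rational form of `gamma0`. -/
def gammaQ (g : ℕ → ℚ) (n : ℕ) (ρ : ℚ) : ℚ :=
  ∑ k ∈ Finset.range n, ∑ l ∈ Finset.range n, g k * g l * ρ ^ l / ((k:ℚ) + l + 1)

/-- Rational form of `pairK`. -/
def pairQ (g : ℕ → ℚ) (n : ℕ) (A B : ℚ) : ℚ :=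
  2 * (min A B * gammaQ g n (min A B / max A B))

/-- Rational form of the remainder constant. -/
def R2Q (g : ℕ → ℚ) (n : ℕ) (a t : ι → ℚ) : ℚ :=
  ∑ i, ∑ l, a i * a l * pairQ g n (t i) (t l)

/-- Rational form of the weight constant. -/
def H2Q (g : ℕ → ℚ) (n : ℕ) : ℚ :=
  (1 / 2) * ∑ k ∈ Finset.range n, ∑ l ∈ Finset.range n,
    g k * k * (g l * l) / (((k - 2 + (l - 2) + 1 : ℕ) : ℚ) + 1)

/-- Rational form of the partition constant. -/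
def cQ (a t : ι → ℚ) : ℚ := ∑ i, ∑ l, a i * a l / (max (t i) (t l)) ^ 2

/-- Rational evaluation of the profile. -/
def polyGQ (g : ℕ → ℚ) (n : ℕ) (y : ℚ) : ℚ := ∑ k ∈ Finset.range n, g k * y ^ k

theorem cast_gammaQ (g : ℕ → ℚ) (n : ℕ) (ρ : ℚ) :
    ((gammaQ g n ρ : ℚ) : ℝ) = gamma0 (fun k => (g k : ℝ)) n (ρ : ℝ) := by
  unfold gammaQ gamma0
  push_cast
  rfl

theorem cast_pairQ (g : ℕ → ℚ) (n : ℕ) (A B : ℚ) :
    ((pairQ g n A B : ℚ) : ℝ) = pairK (fun k => (g k : ℝ)) n (A : ℝ) (B : ℝ) := by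
  unfold pairQ pairK
  rw [Rat.cast_mul, Rat.cast_mul, cast_gammaQ, Rat.cast_div, Rat.cast_min, Rat.cast_max]
  push_cast
  rfl

theorem cast_R2Q (g : ℕ → ℚ) (n : ℕ)
    (hP : Profile (polyG (fun k => (g k : ℝ)) n) (polyH (fun k => (g k : ℝ)) n))
    (a t : ι → ℚ) (ht : ∀ i, 0 < t i) :
    ((R2Q g n a t : ℚ) : ℝ) = R2 (fun i => (a i : ℝ)) (fun i => (t i : ℝ))
      (polyG (fun k => (g k : ℝ)) n) := by
  rw [R2_poly _ _ hP _ _ (fun i => by exact_mod_cast ht i)]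
  unfold R2Q
  rw [Rat.cast_sum]
  refine Finset.sum_congr rfl fun i _ => ?_
  rw [Rat.cast_sum]
  refine Finset.sum_congr rfl fun l _ => ?_
  rw [Rat.cast_mul, Rat.cast_mul, cast_pairQ]

theorem cast_H2Q (g : ℕ → ℚ) (n : ℕ) :
    ((H2Q g n : ℚ) : ℝ) = H2 (polyH (fun k => (g k : ℝ)) n) := by
  rw [H2_polyH]
  unfold H2Q
  push_cast
  rfl

theorem cast_cQ (a t : ι → ℚ) :
    ((cQ a t : ℚ) : ℝ) = cStep (fun i => (a i : ℝ)) (fun i => (t i : ℝ)) := by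
  unfold cQ cStep
  rw [Rat.cast_sum]
  refine Finset.sum_congr rfl fun i _ => ?_
  rw [Rat.cast_sum]
  refine Finset.sum_congr rfl fun l _ => ?_
  rw [Rat.cast_div, Rat.cast_mul, Rat.cast_pow, Rat.cast_max]

theorem cast_polyGQ (g : ℕ → ℚ) (n : ℕ) (y : ℚ) :
    ((polyGQ g n y : ℚ) : ℝ) = polyG (fun k => (g k : ℝ)) n (y : ℝ) := by
  unfold polyGQ polyG
  push_cast
  rfl

/-- The summary of the rational checks. -/
structure Cert (g : ℕ → ℚ) (n : ℕ) (a t : ι → ℚ) (r Rb cb : ℚ) : Prop where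
  ht : ∀ i, 0 < t i
  hg1 : g 1 = 0
  hG0 : polyGQ g n 0 = 1
  hG1 : polyGQ g n 1 = 0
  hsum : ∑ i, a i = 1
  hH : 0 < H2Q g n
  hr : 0 < r
  hRb : R2Q g n a t ≤ Rb
  hcb : cQ a t ≤ cb
  hmain : Rb ^ 2 * H2Q g n * cb ≤ (64 / 243) * r ^ 2

end Vale.Agent.Lib.P371
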