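import Vale.Agent.Lib.P371.Pointwise

/-!
Linear algebra of the eigenbasis of a Hermitian matrix.
-/

open Matrix MeasureTheory
open scoped ComplexConjugate

namespace Vale.Agent.Lib.P371

variable {m : ℕ} {A : Matrix (Fin m) (Fin m) ℂ}

/-- Coefficient of a vector along the `k`-th eigenvector. -/
noncomputable def ecoef (hA : A.IsHermitian) (k : Fin m) (v : Fin m → ℂ) : ℂ :=
  ∑ a, conj (hA.eigenvectorBasis k a) * v a

theorem ecoef_eq_mulVec (hA : A.IsHermitian) (k : Fin m) (v : Fin m → ℂ) :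
    ecoef hA k v = (star (hA.eigenvectorUnitary : Matrix (Fin m) (Fin m) ℂ) *ᵥ v) k := by
  simp [ecoef, Matrix.mulVec, dotProduct, Matrix.star_apply]

theorem star_dot_self (y : Fin m → ℂ) : star y ⬝ᵥ y = ((∑ a, ‖y a‖ ^ 2 : ℝ) : ℂ) := by
  simp only [dotProduct, Pi.star_apply]
  push_cast
  refine Finset.sum_congr rfl fun a _ => ?_
  rw [RCLike.star_def, mul_comm, Complex.mul_conj, Complex.normSq_eq_norm_sq]
  push_cast
  rfl

/-- Parseval in the eigenbasis. -/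
theorem sum_ecoef_sq (hA : A.IsHermitian) (v : Fin m → ℂ) :
    ∑ k, ‖ecoef hA k v‖ ^ 2 = ∑ a, ‖v a‖ ^ 2 := by
  set U : Matrix (Fin m) (Fin m) ℂ := ↑hA.eigenvectorUnitary with hU
  set y := star U *ᵥ v with hy
  have hUU : U * star U = 1 := Unitary.coe_mul_star_self hA.eigenvectorUnitary
  have h1 : star y ⬝ᵥ y = star v ⬝ᵥ v := by
    rw [hy, star_mulVec, ← star_eq_conjTranspose, star_star, ← dotProduct_mulVec, mulVec_mulVec, hUU, one_mulVec]
  rw [star_dot_self, star_dot_self] at h1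
  have h2 : ∑ k, ‖ecoef hA k v‖ ^ 2 = ∑ k, ‖y k‖ ^ 2 := by
    refine Finset.sum_congr rfl fun k _ => ?_
    rw [ecoef_eq_mulVec]
  rw [h2]
  exact_mod_cast h1

/-- The quadratic form in the eigenbasis. -/
theorem quad_eq (hA : A.IsHermitian) (v : Fin m → ℂ) :
    star v ⬝ᵥ (A *ᵥ v) = ((∑ k, hA.eigenvalues k * ‖ecoef hA k v‖ ^ 2 : ℝ) : ℂ) := by
  set U : Matrix (Fin m) (Fin m) ℂ := ↑hA.eigenvectorUnitary with hU
  set y := star U *ᵥ v with hy
  have hA' : A = U * diagonal (RCLike.ofReal ∘ hA.eigenvalues) * star U := by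
    have := hA.spectral_theorem (𝕜 := ℂ)
    rwa [Unitary.conjStarAlgAut_apply] at this
  have h1 : star v ⬝ᵥ (A *ᵥ v) = star y ⬝ᵥ (diagonal (RCLike.ofReal ∘ hA.eigenvalues) *ᵥ y) := by
    conv_lhs => rw [hA']
    rw [← mulVec_mulVec, ← mulVec_mulVec, dotProduct_mulVec]
    rw [hy, star_mulVec, ← star_eq_conjTranspose, star_star]
  rw [h1]
  simp only [dotProduct, mulVec_diagonal, Pi.star_apply, Function.comp_apply]
  push_cast
  refine Finset.sum_congr rfl fun k _ => ?_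
  rw [ecoef_eq_mulVec, ← hU, ← hy, RCLike.star_def]
  have : conj (y k) * (↑(hA.eigenvalues k) * y k) =
      (hA.eigenvalues k : ℂ) * (y k * conj (y k)) := by ring
  simp only [Complex.coe_algebraMap] at *
  rw [this, Complex.mul_conj, Complex.normSq_eq_norm_sq]
  push_cast
  rfl

/-- The eigenvectors are unit vectors. -/
theorem sum_eigvec_sq (hA : A.IsHermitian) (k : Fin m) :
    ∑ a, ‖hA.eigenvectorBasis k a‖ ^ 2 = 1 := by
  have h := hA.eigenvectorBasis.orthonormal.1 k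
  rw [EuclideanSpace.norm_eq] at h
  have h2 := Real.sqrt_eq_one.1 h
  exact h2

/-- Cauchy-Schwarz along a unit vector. -/
theorem ecoef_sq_le (hA : A.IsHermitian) (k : Fin m) (v : Fin m → ℂ) :
    ‖ecoef hA k v‖ ^ 2 ≤ ∑ a, ‖v a‖ ^ 2 := by
  rw [← sum_ecoef_sq hA v]
  exact Finset.single_le_sum (f := fun k => ‖ecoef hA k v‖ ^ 2) (fun _ _ => by positivity)
    (Finset.mem_univ k)

/-- The elementary Young inequality in the final step. -/
theorem young_poly {x y K C : ℝ} (hx : 0 ≤ x) (hy : 0 ≤ y) (hK : 0 < K) (hC : 0 < C)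
    (hKC : 4 ≤ 27 * K * C ^ 2) : x * y ^ 2 ≤ K * x ^ 3 + C * y ^ 3 := by
  set d := 3 * C / 2 with hd
  have hd0 : 0 < d := by positivity
  set Z := 3 * K * d ^ 2 with hZ
  have hZ1 : 1 ≤ Z := by
    rw [hZ, hd]; nlinarith
  have h1 : 0 ≤ (x - d * y) ^ 2 * (x + 2 * d * y) := by positivity
  have h2 : 3 * d ^ 2 * (x * y ^ 2) ≤ x ^ 3 + 2 * d ^ 3 * y ^ 3 := by nlinarith
  have h3 : Z * (x * y ^ 2) ≤ K * x ^ 3 + Z * C * y ^ 3 := by
    have h4 := mul_le_mul_of_nonneg_left h2 hK.le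
    have e1 : K * (3 * d ^ 2 * (x * y ^ 2)) = Z * (x * y ^ 2) := by rw [hZ]; ring
    have e2 : K * (x ^ 3 + 2 * d ^ 3 * y ^ 3) = K * x ^ 3 + Z * C * y ^ 3 := by
      rw [hZ, hd]; ring
    linarith
  have hZ0 : 0 < Z := by linarith
  have hx3 : 0 ≤ K * x ^ 3 := by positivity
  have h5 : Z * (x * y ^ 2) ≤ Z * (K * x ^ 3 + C * y ^ 3) := by
    have : K * x ^ 3 ≤ Z * (K * x ^ 3) := le_mul_of_one_le_left hx3 hZ1
    nlinarith
  exact le_of_mul_le_mul_left h5 hZ0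

theorem young_rpow {w ρ K C : ℝ} (hw : 0 ≤ w) (hρ : 0 ≤ ρ) (hK : 0 < K) (hC : 0 < C)
    (hKC : 4 ≤ 27 * K * C ^ 2) : w * ρ ≤ K * ρ ^ 3 + C * w ^ (3 / 2 : ℝ) := by
  have h1 := young_poly (y := Real.sqrt w) hρ (Real.sqrt_nonneg w) hK hC hKC
  rw [Real.sq_sqrt hw] at h1
  have h2 : (Real.sqrt w) ^ 3 = w ^ (3 / 2 : ℝ) := by
    rw [Real.sqrt_eq_rpow, ← Real.rpow_natCast, ← Real.rpow_mul hw]
    norm_num
  rw [h2] at h1
  linarith

end Vale.Agent.Lib.P371
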