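import Vale.Agent.Lib.P371.CertBound

/-!
Bounds for the rational constants through tables of natural numbers.
-/

namespace Vale.Agent.Lib.P371

/-- A plain recursive sum. -/
def sumTo (f : ℕ → ℕ) : ℕ → ℕ
  | 0 => 0
  | n + 1 => sumTo f n + f n

theorem cast_sumTo (f : ℕ → ℕ) (L : ℕ) : ((sumTo f L : ℕ) : ℚ) = ∑ i : Fin L, (f i : ℚ) := by
  have h : sumTo f L = ∑ i ∈ Finset.range L, f i := by
    induction L with
    | zero => rfl
    | succ n ih => rw [sumTo, ih, Finset.sum_range_succ]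
  rw [h, Nat.cast_sum, Finset.sum_range]

/-- The coefficients of `gammaQ` as a polynomial. -/
def gammaC (g : ℕ → ℚ) (n l : ℕ) : ℚ :=
  ∑ k ∈ Finset.range n, g k * g l / ((k:ℚ) + l + 1)

theorem gammaQ_eq_sum (g : ℕ → ℚ) (n : ℕ) (ρ : ℚ) :
    gammaQ g n ρ = ∑ l ∈ Finset.range n, gammaC g n l * ρ ^ l := by
  unfold gammaQ gammaC
  rw [Finset.sum_comm]
  refine Finset.sum_congr rfl fun l _ => ?_
  rw [Finset.sum_mul]
  refine Finset.sum_congr rfl fun k _ => ?_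
  ring

theorem pairQ_comm (g : ℕ → ℚ) (n : ℕ) (A B : ℚ) : pairQ g n A B = pairQ g n B A := by
  unfold pairQ
  rw [min_comm, max_comm]

theorem pairQ_of_le (g : ℕ → ℚ) (n : ℕ) {A B : ℚ} (h : A ≤ B) :
    pairQ g n A B = 2 * (A * gammaQ g n (A / B)) := by
  unfold pairQ
  rw [min_eq_left h, max_eq_right h]

/-- The positive part of the pair weight. -/
def uP (Ap Am : ℕ → ℕ) (i l : ℕ) : ℕ := Ap i * Ap l + Am i * Am l

/-- The negative part of the pair weight. -/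
def uN (Ap Am : ℕ → ℕ) (i l : ℕ) : ℕ := Ap i * Am l + Am i * Ap l

/-- The rational data and the table checks. -/
structure TableCert (g : ℕ → ℚ) (n L Sa S : ℕ) (q t0 : ℚ) (Ap Am T G C : ℕ → ℕ) (Xn Yn : ℕ)
    (r : ℚ) : Prop where
  hSa : 0 < Sa
  hS : 0 < S
  hq : 1 ≤ q
  ht0 : 0 < t0
  hT : ∀ i : Fin L, t0 * q ^ (i : ℕ) ≤ (T i : ℚ) / S ∧ ((T i - 1 : ℕ) : ℚ) / S ≤ t0 * q ^ (i : ℕ)
  hC : ∀ i : Fin L, 1 / (t0 * q ^ (i : ℕ)) ^ 2 ≤ (C i : ℚ) / S ∧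
    ((C i - 1 : ℕ) : ℚ) / S ≤ 1 / (t0 * q ^ (i : ℕ)) ^ 2
  hG : ∀ d : Fin L, gammaQ g n ((1 / q) ^ (d : ℕ)) ≤ (G d : ℚ) / S ∧
    ((G d - 1 : ℕ) : ℚ) / S ≤ gammaQ g n ((1 / q) ^ (d : ℕ))
  hsum : sumTo Ap L = sumTo Am L + Sa
  hXn : sumTo (fun i => sumTo (fun l => uP Ap Am i l * (T (min i l) * G (i - l + (l - i)))) L) L ≤
    sumTo (fun i => sumTo (fun l => uN Ap Am i l * ((T (min i l) - 1) * (G (i - l + (l - i)) - 1))) L) L
      + Xn
  hYn : sumTo (fun i => sumTo (fun l => uP Ap Am i l * C (max i l)) L) L ≤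
    sumTo (fun i => sumTo (fun l => uN Ap Am i l * (C (max i l) - 1)) L) L + Yn
  hg1 : g 1 = 0
  hPG0 : polyGQ g n 0 = 1
  hPG1 : polyGQ g n 1 = 0
  hH : 0 < H2Q g n
  hr : 0 < r
  hmain : (2 * ((Xn : ℚ) / (Sa ^ 2 * S ^ 2))) ^ 2 * H2Q g n * ((Yn : ℚ) / (Sa ^ 2 * S)) ≤
    (64 / 243) * r ^ 2

/-- The weights of the data. -/
def aOf {L : ℕ} (Ap Am : ℕ → ℕ) (Sa : ℕ) (i : Fin L) : ℚ := ((Ap i : ℚ) - Am i) / Sa

/-- The scales of the data. -/
def tOf {L : ℕ} (t0 q : ℚ) (i : Fin L) : ℚ := t0 * q ^ (i : ℕ)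

section
variable {g : ℕ → ℚ} {n L Sa S : ℕ} {q t0 : ℚ} {Ap Am T G C : ℕ → ℕ} {Xn Yn : ℕ} {r : ℚ}

theorem TableCert.hqpos (h : TableCert g n L Sa S q t0 Ap Am T G C Xn Yn r) : 0 < q :=
  lt_of_lt_of_le one_pos h.hq

theorem TableCert.t_pos (h : TableCert g n L Sa S q t0 Ap Am T G C Xn Yn r) (i : Fin L) :
    0 < tOf (L := L) t0 q i :=
  mul_pos h.ht0 (pow_pos h.hqpos _)

theorem TableCert.t_mono (h : TableCert g n L Sa S q t0 Ap Am T G C Xn Yn r) {i l : Fin L}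
    (hil : i ≤ l) : tOf (L := L) t0 q i ≤ tOf (L := L) t0 q l :=
  mul_le_mul_of_nonneg_left (pow_le_pow_right₀ h.hq hil) h.ht0.le

theorem TableCert.t_div (h : TableCert g n L Sa S q t0 Ap Am T G C Xn Yn r) {i l : Fin L}
    (hil : i ≤ l) : tOf (L := L) t0 q i / tOf (L := L) t0 q l = (1 / q) ^ ((l : ℕ) - i) := by
  have hq := h.hqpos
  have h0 := h.ht0
  have hle : (i : ℕ) ≤ l := hil
  unfold tOf
  obtain ⟨d, hd⟩ := Nat.exists_eq_add_of_le hle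
  rw [hd, Nat.add_sub_cancel_left, pow_add, one_div, inv_pow]
  field_simp

/-- The pair value for ordered indices. -/
theorem TableCert.pair_le_ord (h : TableCert g n L Sa S q t0 Ap Am T G C Xn Yn r) {i l : Fin L}
    (hil : i ≤ l) :
    pairQ g n (tOf (L := L) t0 q i) (tOf (L := L) t0 q l) ≤
      2 * (((T i : ℚ) / S) * ((G ((l : ℕ) - i) : ℚ) / S)) ∧
    2 * ((((T i - 1 : ℕ) : ℚ) / S) * (((G ((l : ℕ) - i) - 1 : ℕ) : ℚ) / S)) ≤
      pairQ g n (tOf (L := L) t0 q i) (tOf (L := L) t0 q l) := by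
  have hd : (l : ℕ) - i < L := lt_of_le_of_lt (Nat.sub_le _ _) l.2
  obtain ⟨hG1, hG2⟩ := h.hG ⟨(l : ℕ) - i, hd⟩
  simp only at hG1 hG2
  rw [pairQ_of_le g n (h.t_mono hil), h.t_div hil]
  have ht := h.t_pos i
  obtain ⟨hT1, hT2⟩ := h.hT i
  have hnn : (0:ℚ) ≤ ((G ((l : ℕ) - i) - 1 : ℕ) : ℚ) / S := by positivity
  have hnn2 : (0:ℚ) ≤ ((T i - 1 : ℕ) : ℚ) / S := by positivity
  have hG0 := hnn.trans hG2
  constructor
  · refine mul_le_mul_of_nonneg_left ?_ (by norm_num)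
    exact mul_le_mul hT1 hG1 hG0 (ht.le.trans hT1)
  · refine mul_le_mul_of_nonneg_left ?_ (by norm_num)
    exact mul_le_mul hT2 hG2 hnn ht.le

theorem TableCert.pair_le (h : TableCert g n L Sa S q t0 Ap Am T G C Xn Yn r) (i l : Fin L) :
    pairQ g n (tOf (L := L) t0 q i) (tOf (L := L) t0 q l) ≤
      2 * (((T (min (i : ℕ) l) : ℚ) / S) * ((G ((i : ℕ) - l + ((l : ℕ) - i)) : ℚ) / S)) ∧
    2 * (((T (min (i : ℕ) l) - 1 : ℕ) : ℚ) / S * (((G ((i : ℕ) - l + ((l : ℕ) - i)) - 1 : ℕ) : ℚ) / S)) ≤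
      pairQ g n (tOf (L := L) t0 q i) (tOf (L := L) t0 q l) := by
  rcases le_total i l with hil | hil
  · have hle : (i : ℕ) ≤ l := hil
    rw [min_eq_left hle, Nat.sub_eq_zero_of_le hle, zero_add]
    exact h.pair_le_ord hil
  · have hle : (l : ℕ) ≤ i := hil
    rw [min_eq_right hle, Nat.sub_eq_zero_of_le hle, add_zero, pairQ_comm]
    exact h.pair_le_ord hil

theorem TableCert.inv_le (h : TableCert g n L Sa S q t0 Ap Am T G C Xn Yn r) (i l : Fin L) :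
    1 / (max (tOf (L := L) t0 q i) (tOf (L := L) t0 q l)) ^ 2 ≤
      (C (max (i : ℕ) l) : ℚ) / S ∧
    ((C (max (i : ℕ) l) - 1 : ℕ) : ℚ) / S ≤
      1 / (max (tOf (L := L) t0 q i) (tOf (L := L) t0 q l)) ^ 2 := by
  rcases le_total i l with hil | hil
  · have hle : (i : ℕ) ≤ l := hil
    rw [max_eq_right (h.t_mono hil), max_eq_right hle]
    exact h.hC l
  · have hle : (l : ℕ) ≤ i := hil
    rw [max_eq_left (h.t_mono hil), max_eq_left hle]
    exact h.hC i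

/-- The product of two signed weights. -/
theorem aOf_mul (Ap Am : ℕ → ℕ) (Sa : ℕ) {L : ℕ} (i l : Fin L) :
    aOf (L := L) Ap Am Sa i * aOf (L := L) Ap Am Sa l =
      ((uP Ap Am i l : ℚ) - uN Ap Am i l) / Sa ^ 2 := by
  unfold aOf uP uN
  push_cast
  rw [div_mul_div_comm]
  congr 1
  · ring
  · ring

/-- Bilinear bound with a signed weight. -/
theorem signed_le {u w Sa2 x lo up : ℚ} (hu : 0 ≤ u) (hw : 0 ≤ w) (hS : 0 < Sa2) (h1 : x ≤ up)
    (h2 : lo ≤ x) : (u - w) / Sa2 * x ≤ (u * up - w * lo) / Sa2 := by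
  rw [div_mul_eq_mul_div]
  refine div_le_div_of_nonneg_right ?_ hS.le
  nlinarith [mul_le_mul_of_nonneg_left h1 hu, mul_le_mul_of_nonneg_left h2 hw]

theorem TableCert.R_le (h : TableCert g n L Sa S q t0 Ap Am T G C Xn Yn r) :
    R2Q g n (aOf (L := L) Ap Am Sa) (tOf t0 q) ≤ 2 * ((Xn : ℚ) / (Sa ^ 2 * S ^ 2)) := by
  have hSa : (0:ℚ) < Sa := by exact_mod_cast h.hSa
  have hS : (0:ℚ) < S := by exact_mod_cast h.hS
  have h1 := (Nat.cast_le (α := ℚ)).2 h.hXn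
  rw [Nat.cast_add, cast_sumTo, cast_sumTo] at h1
  have h2 : R2Q g n (aOf (L := L) Ap Am Sa) (tOf t0 q) ≤ 2 * ((∑ i : Fin L,
      ((sumTo (fun l => uP Ap Am i l * (T (min (i : ℕ) l) * G ((i : ℕ) - l + (l - i)))) L : ℕ) : ℚ) -
      ∑ i : Fin L,
      ((sumTo (fun l => uN Ap Am i l * ((T (min (i : ℕ) l) - 1) * (G ((i : ℕ) - l + (l - i)) - 1))) L : ℕ) : ℚ)) /
      (Sa ^ 2 * S ^ 2)) := by
    unfold R2Q
    rw [← Finset.sum_sub_distrib, Finset.sum_div, Finset.mul_sum]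
    refine Finset.sum_le_sum fun i _ => ?_
    rw [cast_sumTo, cast_sumTo, ← Finset.sum_sub_distrib, Finset.sum_div, Finset.mul_sum]
    refine Finset.sum_le_sum fun l _ => ?_
    have hp := h.pair_le i l
    rw [aOf_mul]
    refine (signed_le (Nat.cast_nonneg _) (Nat.cast_nonneg _) (by positivity) hp.1 hp.2).trans
      (le_of_eq ?_)
    push_cast
    field_simp
  refine h2.trans ?_
  refine mul_le_mul_of_nonneg_left ?_ (by norm_num)
  refine div_le_div_of_nonneg_right ?_ (by positivity)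
  linarith

theorem TableCert.c_le (h : TableCert g n L Sa S q t0 Ap Am T G C Xn Yn r) :
    cQ (aOf (L := L) Ap Am Sa) (tOf t0 q) ≤ (Yn : ℚ) / (Sa ^ 2 * S) := by
  have hSa : (0:ℚ) < Sa := by exact_mod_cast h.hSa
  have hS : (0:ℚ) < S := by exact_mod_cast h.hS
  have h1 := (Nat.cast_le (α := ℚ)).2 h.hYn
  rw [Nat.cast_add, cast_sumTo, cast_sumTo] at h1
  have h2 : cQ (aOf (L := L) Ap Am Sa) (tOf t0 q) ≤ (∑ i : Fin L,
      ((sumTo (fun l => uP Ap Am i l * C (max (i : ℕ) l)) L : ℕ) : ℚ) - ∑ i : Fin L,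
      ((sumTo (fun l => uN Ap Am i l * (C (max (i : ℕ) l) - 1)) L : ℕ) : ℚ)) / (Sa ^ 2 * S) := by
    unfold cQ
    rw [← Finset.sum_sub_distrib, Finset.sum_div]
    refine Finset.sum_le_sum fun i _ => ?_
    rw [cast_sumTo, cast_sumTo, ← Finset.sum_sub_distrib, Finset.sum_div]
    refine Finset.sum_le_sum fun l _ => ?_
    have hp := h.inv_le i l
    rw [div_eq_mul_one_div (aOf (L := L) Ap Am Sa i * aOf (L := L) Ap Am Sa l), aOf_mul]
    refine (signed_le (Nat.cast_nonneg _) (Nat.cast_nonneg _) (by positivity) hp.1 hp.2).trans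
      (le_of_eq ?_)
    push_cast
    field_simp
  refine h2.trans ?_
  refine div_le_div_of_nonneg_right ?_ (by positivity)
  linarith

/-- From the table checks to the certificate. -/
theorem TableCert.cert (h : TableCert g n L Sa S q t0 Ap Am T G C Xn Yn r) :
    Cert g n (aOf (L := L) Ap Am Sa) (tOf t0 q) r (2 * ((Xn : ℚ) / (Sa ^ 2 * S ^ 2)))
      ((Yn : ℚ) / (Sa ^ 2 * S)) := by
  refine ⟨h.t_pos, h.hg1, h.hPG0, h.hPG1, ?_, h.hH, h.hr, h.R_le, h.c_le, h.hmain⟩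
  have hSa : (Sa:ℚ) ≠ 0 := by exact_mod_cast h.hSa.ne'
  unfold aOf
  rw [← Finset.sum_div, Finset.sum_sub_distrib, ← cast_sumTo, ← cast_sumTo, h.hsum]
  push_cast
  field_simp
  ring

end

end Vale.Agent.Lib.P371
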